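import Vale.Agent.P358.GAD.ChanT
import Vale.Agent.P358.AD.Add

/-!
Entropy of the average output, all parameters.
-/

namespace Vale.Agent.P358
open Matrix
open scoped ComplexOrder

variable {X Y : Type*} [Fintype X] [DecidableEq X] [Fintype Y] [DecidableEq Y]

omit [Fintype Y] [DecidableEq Y] in
theorem addavgG_sum_fromBlocks {ι : Type*} (s : Finset ι) (a b c d : ι → Matrix Y Y ℂ) :
    ∑ j ∈ s, fromBlocks (a j) (b j) (c j) (d j) =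
      fromBlocks (∑ j ∈ s, a j) (∑ j ∈ s, b j) (∑ j ∈ s, c j) (∑ j ∈ s, d j) := by
  ext (i | i) (k | k) <;> simp [Matrix.sum_apply]

theorem St_avg_NMG_le (γ ν : ℝ) (h0 : 0 ≤ γ) (h1 : γ ≤ 1) (hν0 : 0 ≤ ν) (hν1 : ν ≤ 1)
    {M : Matrix X X ℂ → Matrix Y Y ℂ}
    (hM : GoodMap M) {k : ℕ} (q : Fin k → ℝ) (ρ : Fin k → Matrix (X ⊕ X) (X ⊕ X) ℂ)
    (hE : IsEnsemble q ρ) :
    St (∑ a, (q a : ℂ) • NMG γ ν M (ρ a)) ≤
      Real.negMulLog (1 - (γ * ν + (1 - γ) * ∑ a, q a * (ρ a).toBlocks₂₂.trace.re))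
        + Real.negMulLog (γ * ν + (1 - γ) * ∑ a, q a * (ρ a).toBlocks₂₂.trace.re)
        + St (∑ a, (q a : ℂ) • (M (ρ a).toBlocks₁₁ + M (ρ a).toBlocks₂₂)) := by
  obtain ⟨hq, hq1, hρ⟩ := hE
  have hst : IsState (∑ a, (q a : ℂ) • NMG γ ν M (ρ a)) :=
    mixture_isState q _ hq hq1 (fun a => NMG_isState γ ν h0 h1 hν0 hν1 hM (hρ a))
  have hW : ∑ a, (q a : ℂ) • NMG γ ν M (ρ a) =
      fromBlocks (∑ a, (q a : ℂ) • (((1 - γ * ν : ℝ) : ℂ) • M (ρ a).toBlocks₁₁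
          + ((γ * (1 - ν) : ℝ) : ℂ) • M (ρ a).toBlocks₂₂))
        (∑ a, (q a : ℂ) • ((Real.sqrt (1 - γ) : ℂ) • M (ρ a).toBlocks₁₂))
        (∑ a, (q a : ℂ) • ((Real.sqrt (1 - γ) : ℂ) • M (ρ a).toBlocks₂₁))
        (∑ a, (q a : ℂ) • (((γ * ν : ℝ) : ℂ) • M (ρ a).toBlocks₁₁
          + ((1 - γ * (1 - ν) : ℝ) : ℂ) • M (ρ a).toBlocks₂₂)) := by
    rw [← addavgG_sum_fromBlocks]
    refine Finset.sum_congr rfl fun a _ => ?_
    rw [← fromBlocks_smul]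
    rfl
  rw [hW] at hst ⊢
  have key := St_marginal_le _ _ _ _ hst.1 hst.2
  have hsum : (∑ a, (q a : ℂ) • (((1 - γ * ν : ℝ) : ℂ) • M (ρ a).toBlocks₁₁
          + ((γ * (1 - ν) : ℝ) : ℂ) • M (ρ a).toBlocks₂₂)) +
      (∑ a, (q a : ℂ) • (((γ * ν : ℝ) : ℂ) • M (ρ a).toBlocks₁₁
          + ((1 - γ * (1 - ν) : ℝ) : ℂ) • M (ρ a).toBlocks₂₂)) =
      ∑ a, (q a : ℂ) • (M (ρ a).toBlocks₁₁ + M (ρ a).toBlocks₂₂) := by
    rw [← Finset.sum_add_distrib]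
    refine Finset.sum_congr rfl fun a _ => ?_
    rw [← smul_add]
    congr 1
    have e1 : ((1 - γ * ν : ℝ) : ℂ) + ((γ * ν : ℝ) : ℂ) = 1 := by
      push_cast
      ring
    have e2 : ((γ * (1 - ν) : ℝ) : ℂ) + ((1 - γ * (1 - ν) : ℝ) : ℂ) = 1 := by
      push_cast
      ring
    calc _ = (((1 - γ * ν : ℝ) : ℂ) + ((γ * ν : ℝ) : ℂ)) • M (ρ a).toBlocks₁₁
          + (((γ * (1 - ν) : ℝ) : ℂ) + ((1 - γ * (1 - ν) : ℝ) : ℂ)) • M (ρ a).toBlocks₂₂ := by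
          rw [add_smul, add_smul]; abel
      _ = _ := by rw [e1, e2, one_smul, one_smul]
  have ht2 : (∑ a, (q a : ℂ) • (((γ * ν : ℝ) : ℂ) • M (ρ a).toBlocks₁₁
          + ((1 - γ * (1 - ν) : ℝ) : ℂ) • M (ρ a).toBlocks₂₂)).trace.re =
      γ * ν + (1 - γ) * ∑ a, q a * (ρ a).toBlocks₂₂.trace.re := by
    rw [trace_sum, Complex.re_sum, Finset.mul_sum]
    have : γ * ν + ∑ a, (1 - γ) * (q a * (ρ a).toBlocks₂₂.trace.re) =
        ∑ a, (γ * ν * q a + (1 - γ) * (q a * (ρ a).toBlocks₂₂.trace.re)) := by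
      rw [Finset.sum_add_distrib, ← Finset.mul_sum (f := q), hq1, mul_one]
    rw [this]
    refine Finset.sum_congr rfl fun a _ => ?_
    have hb := (state_blocks (hρ a)).2.2
    rw [trace_smul, trace_add, trace_smul, trace_smul, hM.trace, hM.trace, smul_eq_mul, smul_eq_mul,
      smul_eq_mul, Complex.re_ofReal_mul, Complex.add_re, Complex.re_ofReal_mul,
      Complex.re_ofReal_mul]
    have e : (ρ a).toBlocks₁₁.trace.re = 1 - (ρ a).toBlocks₂₂.trace.re := by linarith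
    rw [e]
    ring
  have ht1 : (∑ a, (q a : ℂ) • (((1 - γ * ν : ℝ) : ℂ) • M (ρ a).toBlocks₁₁
          + ((γ * (1 - ν) : ℝ) : ℂ) • M (ρ a).toBlocks₂₂)).trace.re =
      1 - (γ * ν + (1 - γ) * ∑ a, q a * (ρ a).toBlocks₂₂.trace.re) := by
    have h := hst.2
    rw [trace_fromBlocks'] at h
    have h' := congrArg Complex.re h
    rw [Complex.add_re, ht2, Complex.one_re] at h'
    linarith
  rw [hsum, ht1, ht2] at key
  exact key

end Vale.Agent.P358
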