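import Vale.Agent.P358.GAD.DefsG
import Vale.Agent.P358.AD.AddFirst
import Vale.Agent.P358.AD.CapBook

/-!
First bracket of the additivity argument for all `(γ, ν)`: an ensemble of pure qubit states.
-/

namespace Vale.Agent.P358
open Matrix
open scoped ComplexOrder

theorem gadc_psiState_one (γ ν r : ℝ) : gadc γ ν (psiState r 1) = omG γ ν (1 - r) r := by
  have hc : Real.sqrt (r * (1 - r)) = Real.sqrt ((1 - r) * r) := by rw [mul_comm]
  ext i j
  fin_cases i <;> fin_cases j <;> simp [gadc, psiState, omG, hc]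

theorem gadc_psiState_neg_one (γ ν r : ℝ) :
    gadc γ ν (psiState r (-1)) =
      (diagonal ![1, -1] : Matrix (Fin 2) (Fin 2) ℂ) * omG γ ν (1 - r) r *
        (diagonal ![1, -1] : Matrix (Fin 2) (Fin 2) ℂ)ᴴ := by
  have hc : Real.sqrt (r * (1 - r)) = Real.sqrt ((1 - r) * r) := by rw [mul_comm]
  ext i j
  fin_cases i <;> fin_cases j <;>
    simp [gadc, psiState, omG, hc, Matrix.mul_apply, Matrix.diagonal_apply]

theorem omG_posSemidef_state (γ ν : ℝ) (h0 : 0 ≤ γ) (h1 : γ ≤ 1) (hν0 : 0 ≤ ν) (hν1 : ν ≤ 1)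
    {r : ℝ} (hr0 : 0 ≤ r) (hr1 : r ≤ 1) : (omG γ ν (1 - r) r).PosSemidef := by
  rw [← gadc_psiState_one]
  exact (gadc_isState γ ν h0 h1 hν0 hν1 _ (psiState_isState hr0 hr1 (Or.inl rfl))).1

theorem St_gadc_psiStateG (γ ν : ℝ) (h0 : 0 ≤ γ) (h1 : γ ≤ 1) (hν0 : 0 ≤ ν) (hν1 : ν ≤ 1)
    {r e : ℝ} (hr0 : 0 ≤ r) (hr1 : r ≤ 1) (he : e = 1 ∨ e = -1) :
    St (gadc γ ν (psiState r e)) = St (omG γ ν (1 - r) r) := by
  rcases he with rfl | rfl
  · rw [gadc_psiState_one]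
  · rw [gadc_psiState_neg_one]
    refine St_unitary_conj _ _ (omG_posSemidef_state γ ν h0 h1 hν0 hν1 hr0 hr1) ?_
    ext i j
    fin_cases i <;> fin_cases j <;>
      simp [Matrix.mul_apply, Matrix.diagonal_apply]

theorem first_bracket_aux_avgG (γ ν : ℝ) {k : ℕ} (q r : Fin k → ℝ) (hq1 : ∑ a, q a = 1) :
    (∑ ab : Fin k × Bool, ((q ab.1 / 2 : ℝ) : ℂ) •
        gadc γ ν (psiState (r ab.1) (if ab.2 then 1 else -1))) =
      diagonal (fun i : Fin 2 =>
        (((![1 - (γ * ν + (1 - γ) * ∑ a, q a * r a), γ * ν + (1 - γ) * ∑ a, q a * r a] :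
          Fin 2 → ℝ) i : ℝ) : ℂ)) := by
  rw [Fintype.sum_prod_type]
  simp only [Fintype.sum_bool, if_true, Bool.false_eq_true, if_false]
  have hpt : ∀ a, ((q a / 2 : ℝ) : ℂ) • gadc γ ν (psiState (r a) 1)
      + ((q a / 2 : ℝ) : ℂ) • gadc γ ν (psiState (r a) (-1)) =
      diagonal (fun i : Fin 2 =>
        (((![q a - (γ * ν * q a + (1 - γ) * (q a * r a)), γ * ν * q a + (1 - γ) * (q a * r a)] :
          Fin 2 → ℝ) i : ℝ) : ℂ)) := by
    intro a
    ext i j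
    fin_cases i <;> fin_cases j <;>
      simp [gadc, psiState] <;> ring
  simp only [hpt]
  have hqC : ∑ x, (γ : ℂ) * (ν : ℂ) * (q x : ℂ) = (γ : ℂ) * (ν : ℂ) := by
    rw [← Finset.mul_sum]
    have : ∑ x, (q x : ℂ) = 1 := by exact_mod_cast hq1
    rw [this, mul_one]
  ext i j
  rw [Matrix.sum_apply]
  fin_cases i <;> fin_cases j <;>
    simp [Finset.mul_sum, ← hq1, Finset.sum_sub_distrib, Finset.sum_add_distrib, hqC]

/-- the Holevo bound in nats for maps that preserve states. -/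
theorem St_holevo_le_capacity_of_state {X Y : Type*} [Fintype X] [DecidableEq X] [Fintype Y]
    [DecidableEq Y] {M : Matrix X X ℂ → Matrix Y Y ℂ} (hM : ∀ σ, IsState σ → IsState (M σ))
    {ι : Type*} [Fintype ι] (q : ι → ℝ) (ρ : ι → Matrix X X ℂ)
    (hq : ∀ a, 0 ≤ q a) (hq1 : ∑ a, q a = 1) (hρ : ∀ a, q a ≠ 0 → IsState (ρ a)) :
    St (∑ a, (q a : ℂ) • M (ρ a)) - ∑ a, q a * St (M (ρ a)) ≤ holevoCapacity M * Real.log 2 := by
  have h := holevoQ_le_capacity' M hM q ρ hq hq1 hρ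
  unfold holevoQ at h
  simp only [vnEntropy_eq_St] at h
  have hl := log_two_pos'
  have e : St (∑ a, (q a : ℂ) • M (ρ a)) / Real.log 2 - ∑ a, q a * (St (M (ρ a)) / Real.log 2) =
      (St (∑ a, (q a : ℂ) • M (ρ a)) - ∑ a, q a * St (M (ρ a))) / Real.log 2 := by
    rw [sub_div, Finset.sum_div]
    congr 1
    refine Finset.sum_congr rfl fun a _ => ?_
    ring
  rw [e, div_le_iff₀ hl] at h
  exact h

/-- First bracket: the ensemble `{q a / 2, psiState (r a) (± 1)}`. -/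
theorem first_bracketG (γ ν : ℝ) (h0 : 0 ≤ γ) (h1 : γ ≤ 1) (hν0 : 0 ≤ ν) (hν1 : ν ≤ 1) {k : ℕ}
    (q r : Fin k → ℝ)
    (hq : ∀ a, 0 ≤ q a) (hq1 : ∑ a, q a = 1) (hr0 : ∀ a, 0 ≤ r a) (hr1 : ∀ a, r a ≤ 1) :
    Real.negMulLog (1 - (γ * ν + (1 - γ) * ∑ a, q a * r a))
      + Real.negMulLog (γ * ν + (1 - γ) * ∑ a, q a * r a)
      - ∑ a, q a * St (omG γ ν (1 - r a) (r a)) ≤ holevoCapacity (gadc γ ν) * Real.log 2 := by
  have hsgn : ∀ b : Bool, ((if b then 1 else -1 : ℝ) = 1 ∨ (if b then 1 else -1 : ℝ) = -1) := by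
    intro b; cases b <;> simp
  have h := St_holevo_le_capacity_of_state (M := gadc γ ν)
    (fun σ hσ => gadc_isState γ ν h0 h1 hν0 hν1 σ hσ) (ι := Fin k × Bool)
    (fun ab => q ab.1 / 2) (fun ab => psiState (r ab.1) (if ab.2 then 1 else -1))
    (fun ab => div_nonneg (hq ab.1) (by norm_num))
    (by
      rw [Fintype.sum_prod_type]
      simp only [Fintype.sum_bool, add_halves, hq1])
    (fun ab _ => psiState_isState (hr0 ab.1) (hr1 ab.1) (hsgn ab.2))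
  have hrbar0 : 0 ≤ ∑ a, q a * r a := Finset.sum_nonneg fun a _ => mul_nonneg (hq a) (hr0 a)
  have hrbar1 : ∑ a, q a * r a ≤ 1 := by
    rw [← hq1]
    exact Finset.sum_le_sum fun a _ => mul_le_of_le_one_right (hq a) (hr1 a)
  have hgn : γ * ν ≤ γ := mul_le_of_le_one_right h0 hν1
  have hgn0 : 0 ≤ γ * ν := mul_nonneg h0 hν0
  have hd : ∀ i : Fin 2, 0 ≤ (![1 - (γ * ν + (1 - γ) * ∑ a, q a * r a),
      γ * ν + (1 - γ) * ∑ a, q a * r a] : Fin 2 → ℝ) i := by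
    intro i
    fin_cases i
    · simp only [Fin.zero_eta, Matrix.cons_val_zero]
      nlinarith
    · simp only [Fin.mk_one, Matrix.cons_val_one, Matrix.cons_val_zero]
      exact add_nonneg hgn0 (mul_nonneg (by linarith) hrbar0)
  rw [first_bracket_aux_avgG γ ν q r hq1, St_diagonal _ hd] at h
  simp only [Fin.sum_univ_two, Matrix.cons_val_zero, Matrix.cons_val_one] at h
  have h2 : ∑ ab : Fin k × Bool, q ab.1 / 2 *
      St (gadc γ ν (psiState (r ab.1) (if ab.2 then 1 else -1))) =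
      ∑ a, q a * St (omG γ ν (1 - r a) (r a)) := by
    rw [Fintype.sum_prod_type]
    refine Finset.sum_congr rfl fun a _ => ?_
    simp only [Fintype.sum_bool, if_true, Bool.false_eq_true, if_false]
    rw [St_gadc_psiStateG γ ν h0 h1 hν0 hν1 (hr0 a) (hr1 a) (Or.inl rfl),
      St_gadc_psiStateG γ ν h0 h1 hν0 hν1 (hr0 a) (hr1 a) (Or.inr rfl)]
    ring
  rw [h2] at h
  exact h

end Vale.Agent.P358
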