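import Vale.Agent.P358.AD.Chan

/-!
Block form of `(generalized amplitude damping) ⊗ M`, all parameters.
-/

namespace Vale.Agent.P358
open Matrix
open scoped ComplexOrder

variable {X Y : Type*} [Fintype X] [DecidableEq X] [Fintype Y] [DecidableEq Y]

/-- Block form of the output of `(generalized amplitude damping with parameters γ, ν) ⊗ id`. -/
noncomputable def OmG (γ ν : ℝ) (P B C Q : Matrix Y Y ℂ) : Matrix (Y ⊕ Y) (Y ⊕ Y) ℂ :=
  fromBlocks (((1 - γ * ν : ℝ) : ℂ) • P + ((γ * (1 - ν) : ℝ) : ℂ) • Q)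
    ((Real.sqrt (1 - γ) : ℂ) • B) ((Real.sqrt (1 - γ) : ℂ) • C)
    (((γ * ν : ℝ) : ℂ) • P + ((1 - γ * (1 - ν) : ℝ) : ℂ) • Q)

/-- Block form of `(generalized amplitude damping) ⊗ M`. -/
noncomputable def NMG (γ ν : ℝ) (M : Matrix X X ℂ → Matrix Y Y ℂ) (ρ : Matrix (X ⊕ X) (X ⊕ X) ℂ) :
    Matrix (Y ⊕ Y) (Y ⊕ Y) ℂ :=
  OmG γ ν (M ρ.toBlocks₁₁) (M ρ.toBlocks₁₂) (M ρ.toBlocks₂₁) (M ρ.toBlocks₂₂)

/-- The output of the channel on the (unnormalised) pure qubit state with populations `x` (ground)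
and `t` (excited) and positive coherence. -/
noncomputable def omG (γ ν x t : ℝ) : Matrix (Fin 2) (Fin 2) ℂ :=
  !![(((1 - γ * ν) * x + γ * (1 - ν) * t : ℝ) : ℂ), ((Real.sqrt (1 - γ) * Real.sqrt (x * t) : ℝ) : ℂ);
     ((Real.sqrt (1 - γ) * Real.sqrt (x * t) : ℝ) : ℂ), ((γ * ν * x + (1 - γ * (1 - ν)) * t : ℝ) : ℂ)]

end Vale.Agent.P358
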