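import Vale.Agent.P358.AD.ChanOm
import Vale.Agent.P358.GAD.DefsG

/-!
Block form of `(generalized amplitude damping) ⊗ M`, for all `γ`, `ν`.
-/

namespace Vale.Agent.P358
open Matrix
open scoped ComplexOrder

variable {X Y : Type*} [Fintype X] [DecidableEq X] [Fintype Y] [DecidableEq Y]

/-- Block form of the output of `(reversed amplitude damping) ⊗ id`. -/
noncomputable def OmR (γ : ℝ) (P B C Q : Matrix Y Y ℂ) : Matrix (Y ⊕ Y) (Y ⊕ Y) ℂ :=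
  fromBlocks (((1 - γ : ℝ) : ℂ) • P) ((Real.sqrt (1 - γ) : ℂ) • B) ((Real.sqrt (1 - γ) : ℂ) • C)
    (Q + (γ : ℂ) • P)

theorem OmR_posSemidef (γ : ℝ) (h0 : 0 ≤ γ) (h1 : γ ≤ 1) {P B C Q : Matrix Y Y ℂ}
    (hw : (fromBlocks P B C Q).PosSemidef) : (OmR γ P B C Q).PosSemidef := by
  have hs1 : ((Real.sqrt (1 - γ) : ℝ) : ℂ) * ((Real.sqrt (1 - γ) : ℝ) : ℂ) = ((1 - γ : ℝ) : ℂ) := by
    rw [← Complex.ofReal_mul, Real.mul_self_sqrt (by linarith)]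
  have hs2 : ((Real.sqrt γ : ℝ) : ℂ) * ((Real.sqrt γ : ℝ) : ℂ) = ((γ : ℝ) : ℂ) := by
    rw [← Complex.ofReal_mul, Real.mul_self_sqrt h0]
  have key : OmR γ P B C Q =
      fromBlocks (((Real.sqrt (1 - γ) : ℝ) : ℂ) • (1 : Matrix Y Y ℂ)) 0 0 (1 : Matrix Y Y ℂ) *
          fromBlocks P B C Q *
          (fromBlocks (((Real.sqrt (1 - γ) : ℝ) : ℂ) • (1 : Matrix Y Y ℂ)) 0 0 (1 : Matrix Y Y ℂ))ᴴ +
        fromBlocks (0 : Matrix Y Y ℂ) 0 (((Real.sqrt γ : ℝ) : ℂ) • (1 : Matrix Y Y ℂ)) 0 *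
          fromBlocks P B C Q *
          (fromBlocks (0 : Matrix Y Y ℂ) 0 (((Real.sqrt γ : ℝ) : ℂ) • (1 : Matrix Y Y ℂ)) 0)ᴴ := by
    simp only [fromBlocks_conjTranspose, fromBlocks_multiply, Matrix.zero_mul, Matrix.mul_zero,
      add_zero, zero_add, conjTranspose_zero, conjTranspose_one, conjTranspose_smul, Matrix.one_mul,
      Matrix.mul_one, Matrix.smul_mul, Matrix.mul_smul, fromBlocks_add, smul_smul, RCLike.star_def,
      Complex.conj_ofReal, hs1, hs2, smul_zero]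
    rfl
  rw [key]
  exact (hw.mul_mul_conjTranspose_same _).add (hw.mul_mul_conjTranspose_same _)

/-- the generalized amplitude damping channel is a mixture of amplitude damping and reversed
amplitude damping. -/
theorem OmG_eq_mix (γ ν : ℝ) (P B C Q : Matrix Y Y ℂ) :
    OmG γ ν P B C Q = ((1 - ν : ℝ) : ℂ) • OmB γ P B C Q + ((ν : ℝ) : ℂ) • OmR γ P B C Q := by
  unfold OmG OmB OmR
  rw [fromBlocks_smul, fromBlocks_smul, fromBlocks_add]
  congr 1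
  · ext i j
    simp only [Matrix.add_apply, Matrix.smul_apply, smul_eq_mul]
    push_cast
    ring
  · ext i j
    simp only [Matrix.add_apply, Matrix.smul_apply, smul_eq_mul]
    push_cast
    ring
  · ext i j
    simp only [Matrix.add_apply, Matrix.smul_apply, smul_eq_mul]
    push_cast
    ring
  · ext i j
    simp only [Matrix.add_apply, Matrix.smul_apply, smul_eq_mul]
    push_cast
    ring

theorem OmG_posSemidef (γ ν : ℝ) (h0 : 0 ≤ γ) (h1 : γ ≤ 1) (hν0 : 0 ≤ ν) (hν1 : ν ≤ 1)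
    {P B C Q : Matrix Y Y ℂ} (hw : (fromBlocks P B C Q).PosSemidef) :
    (OmG γ ν P B C Q).PosSemidef := by
  rw [OmG_eq_mix]
  refine ((OmB_posSemidef γ h0 h1 hw).smul ?_).add ((OmR_posSemidef γ h0 h1 hw).smul ?_)
  · exact_mod_cast (by linarith : (0 : ℝ) ≤ 1 - ν)
  · exact_mod_cast hν0

theorem OmG_trace (γ ν : ℝ) (P B C Q : Matrix Y Y ℂ) :
    (OmG γ ν P B C Q).trace = P.trace + Q.trace := by
  unfold OmG
  rw [trace_fromBlocks', trace_add, trace_add, trace_smul, trace_smul, trace_smul, trace_smul]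
  simp only [smul_eq_mul]
  push_cast
  ring

theorem OmG_zero (γ : ℝ) (P B C Q : Matrix Y Y ℂ) : OmG γ 0 P B C Q = OmB γ P B C Q := by
  rw [OmG_eq_mix]
  simp

theorem NMG_zero (γ : ℝ) (M : Matrix X X ℂ → Matrix Y Y ℂ) (ρ : Matrix (X ⊕ X) (X ⊕ X) ℂ) :
    NMG γ 0 M ρ = NM γ M ρ := OmG_zero γ _ _ _ _

theorem NMG_isState (γ ν : ℝ) (h0 : 0 ≤ γ) (h1 : γ ≤ 1) (hν0 : 0 ≤ ν) (hν1 : ν ≤ 1)
    {M : Matrix X X ℂ → Matrix Y Y ℂ} (hM : GoodMap M) {ρ : Matrix (X ⊕ X) (X ⊕ X) ℂ}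
    (hρ : IsState ρ) : IsState (NMG γ ν M ρ) := by
  have hρ' : (fromBlocks ρ.toBlocks₁₁ ρ.toBlocks₁₂ ρ.toBlocks₂₁ ρ.toBlocks₂₂).PosSemidef := by
    rw [fromBlocks_toBlocks]; exact hρ.1
  refine ⟨OmG_posSemidef γ ν h0 h1 hν0 hν1 (hM.block_posSemidef hρ'), ?_⟩
  unfold NMG
  rw [OmG_trace, hM.trace, hM.trace, ← trace_fromBlocks', fromBlocks_toBlocks, hρ.2]

end Vale.Agent.P358
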