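import Mathlib

/-!
Real identities behind the rotation of the two diagonal Kraus operators.
-/

namespace Vale.Agent.P358

/-- All the polynomial identities, for abstract coefficients with `s2 = a b' - a' b`. -/
theorem rot_identities (a b a' b' s2 p q D : ℝ) (hs2 : s2 = a * b' - a' * b)
    (hD : D = a * a' * p ^ 2 + 2 * a' * b * (p * q) + b * b' * q ^ 2) (hD0 : D ≠ 0) :
    (b * s2 * q ^ 2 / D + a' * (a * p + b * q) ^ 2 / D = a) ∧
    (b * (a' * p + b' * q) ^ 2 / D + a' * s2 * p ^ 2 / D = b') ∧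
    (b * q * (a' * p + b' * q) / D + a' * p * (a * p + b * q) / D = 1) ∧
    (b * s2 * q ^ 2 / D * p + b * q + b * (a' * p + b' * q) ^ 2 / D * q =
      b * q * (a' * p + b' * q) / D * ((a + a') * p + (b + b') * q)) ∧
    (a' * s2 * p ^ 2 / D * q + a' * p + a' * (a * p + b * q) ^ 2 / D * p =
      a' * p * (a * p + b * q) / D * ((a + a') * p + (b + b') * q)) ∧
    (b * q * (b * (a' * p + b' * q) ^ 2 / D * q) = (b * q * (a' * p + b' * q) / D) ^ 2 * D) ∧
    (a' * p * (a' * (a * p + b * q) ^ 2 / D * p) = (a' * p * (a * p + b * q) / D) ^ 2 * D) := by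
  refine ⟨?_, ?_, ?_, ?_, ?_, ?_, ?_⟩
  · rw [← add_div, div_eq_iff hD0, hD, hs2]; ring
  · rw [← add_div, div_eq_iff hD0, hD, hs2]; ring
  · rw [← add_div, div_eq_iff hD0, hD]; ring
  · field_simp
    rw [hD, hs2]; ring
  · field_simp
    rw [hD, hs2]; ring
  · field_simp
  · field_simp

end Vale.Agent.P358
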