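import Vale.Agent.P358.AD.StMarg
import Vale.Agent.P358.AD.Bdd2

/-!
Concavity of the entropy, unnormalised form.
-/

namespace Vale.Agent.P358
open Matrix
open scoped ComplexOrder

variable {X : Type*} [Fintype X] [DecidableEq X]

/-- normalised case: total trace one. -/
theorem St_add_ge_of_trace_one (A B : Matrix X X ℂ) (hA : A.PosSemidef) (hB : B.PosSemidef)
    (htr : A.trace + B.trace = 1) :
    St A + St B - Real.negMulLog A.trace.re - Real.negMulLog B.trace.re ≤ St (A + B) := by
  have hW := posSemidef_fromBlocks_diag A B hA hB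
  have h := St_marginal_le A 0 0 B hW (by rw [trace_fromBlocks']; exact htr)
  rw [St_fromBlocks_diag A B hA hB] at h
  linarith

/-- Concavity of the entropy in unnormalised form: for positive semidefinite `A`, `B`,
`St A + St B + η (tr A + tr B) - η (tr A) - η (tr B) ≤ St (A + B)`. -/
theorem St_add_ge (A B : Matrix X X ℂ) (hA : A.PosSemidef) (hB : B.PosSemidef) :
    St A + St B + Real.negMulLog (A.trace.re + B.trace.re) - Real.negMulLog A.trace.re
      - Real.negMulLog B.trace.re ≤ St (A + B) := by
  obtain ⟨ha1, ha0⟩ := trace_eq_ofReal hA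
  obtain ⟨hb1, hb0⟩ := trace_eq_ofReal hB
  set a := A.trace.re with ha
  set b := B.trace.re with hb
  rcases (add_nonneg ha0 hb0).eq_or_lt with hT | hT
  · have ha' : a = 0 := by linarith
    have hb' : b = 0 := by linarith
    have hA0 : A = 0 := eq_zero_of_trace_re_eq_zero hA ha'
    have hB0 : B = 0 := eq_zero_of_trace_re_eq_zero hB hb'
    rw [ha', hb', hA0, hB0]
    simp [St_zero]
  · set c : ℝ := (a + b)⁻¹ with hc
    have hc0 : 0 < c := inv_pos.2 hT
    have hcT : c * (a + b) = 1 := inv_mul_cancel₀ hT.ne'
    have hcC : (0 : ℂ) ≤ (c : ℂ) := by exact_mod_cast hc0.le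
    have hA' : ((c : ℂ) • A).PosSemidef := hA.smul hcC
    have hB' : ((c : ℂ) • B).PosSemidef := hB.smul hcC
    have hW := posSemidef_fromBlocks_diag _ _ hA' hB'
    have htrA : ((c : ℂ) • A).trace = ((c * a : ℝ) : ℂ) := by
      rw [Matrix.trace_smul, ha1, smul_eq_mul]; push_cast; rfl
    have htrB : ((c : ℂ) • B).trace = ((c * b : ℝ) : ℂ) := by
      rw [Matrix.trace_smul, hb1, smul_eq_mul]; push_cast; rfl
    have htr : (fromBlocks ((c : ℂ) • A) 0 0 ((c : ℂ) • B)).trace = 1 := by
      rw [trace_fromBlocks', htrA, htrB, ← Complex.ofReal_add, ← mul_add, hcT]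
      simp
    have h := St_marginal_le _ _ _ _ hW htr
    rw [St_fromBlocks_diag _ _ hA' hB', htrA, htrB, ← smul_add, St_smul A hA c hc0.le,
      St_smul B hB c hc0.le, St_smul (A + B) (hA.add hB) c hc0.le, Matrix.trace_add,
      Complex.add_re, Complex.ofReal_re, Complex.ofReal_re, Real.negMulLog_mul,
      Real.negMulLog_mul] at h
    have hkey : Real.negMulLog c * (a + b) = - (c * Real.negMulLog (a + b)) := by
      have hl : Real.log c = - Real.log (a + b) := by rw [hc, Real.log_inv]
      unfold Real.negMulLog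
      rw [hl]
      ring
    have h2 : c * (St A + St B + Real.negMulLog (a + b) - Real.negMulLog a - Real.negMulLog b)
        ≤ c * St (A + B) := by
      have e : Real.negMulLog c * (a + b) = Real.negMulLog c * a + Real.negMulLog c * b := by ring
      nlinarith
    exact le_of_mul_le_mul_left h2 hc0

end Vale.Agent.P358
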