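import Vale.Agent.P358.AD.L0
import Vale.Agent.P358.GAD.StConc

/-!
Scaled and flipped versions of the key entropy inequality at `ν = 0`.
-/

namespace Vale.Agent.P358
open Matrix
open scoped ComplexOrder

variable {Y : Type*} [Fintype Y] [DecidableEq Y]

/-- congruence of a block matrix by a real diagonal scaling. -/
theorem posSemidef_scale (u v : ℝ) {P B C Q : Matrix Y Y ℂ}
    (hw : (fromBlocks P B C Q).PosSemidef) :
    (fromBlocks (((u * u : ℝ) : ℂ) • P) (((u * v : ℝ) : ℂ) • B) (((u * v : ℝ) : ℂ) • C)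
      (((v * v : ℝ) : ℂ) • Q)).PosSemidef := by
  have key : fromBlocks (((u * u : ℝ) : ℂ) • P) (((u * v : ℝ) : ℂ) • B) (((u * v : ℝ) : ℂ) • C)
      (((v * v : ℝ) : ℂ) • Q) =
      fromBlocks (((u : ℝ) : ℂ) • (1 : Matrix Y Y ℂ)) 0 0 (((v : ℝ) : ℂ) • (1 : Matrix Y Y ℂ)) *
          fromBlocks P B C Q *
          (fromBlocks (((u : ℝ) : ℂ) • (1 : Matrix Y Y ℂ)) 0 0
            (((v : ℝ) : ℂ) • (1 : Matrix Y Y ℂ)))ᴴ := by
    simp only [fromBlocks_conjTranspose, fromBlocks_multiply, Matrix.zero_mul, Matrix.mul_zero,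
      add_zero, zero_add, conjTranspose_zero, conjTranspose_one, conjTranspose_smul, Matrix.one_mul,
      Matrix.mul_one, Matrix.smul_mul, Matrix.mul_smul, smul_smul, RCLike.star_def,
      Complex.conj_ofReal, Complex.ofReal_mul, mul_comm]
  rw [key]
  exact hw.mul_mul_conjTranspose_same _

theorem St_smul_sub (A : Matrix Y Y ℂ) (hA : A.PosSemidef) (c : ℝ) (hc : 0 ≤ c) :
    St (((c : ℝ) : ℂ) • A) - Real.negMulLog (c * A.trace.re) =
      c * (St A - Real.negMulLog A.trace.re) := by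
  rw [St_smul A hA c hc, Real.negMulLog_mul]
  ring

omit [DecidableEq Y] in
theorem trace_re_smul (A : Matrix Y Y ℂ) (c : ℝ) :
    (((c : ℝ) : ℂ) • A).trace.re = c * A.trace.re := by
  rw [Matrix.trace_smul, smul_eq_mul, Complex.re_ofReal_mul]

/-- Scaled form of the key inequality (pattern `[[A, B], [C, 0]]` with free weights). -/
theorem L0_scaled (a b c κ : ℝ) (ha : 0 ≤ a) (hb : 0 ≤ b) (hc : 0 ≤ c) (hκ0 : 0 ≤ κ)
    (hκ : κ ^ 2 = a * c) (P B Q : Matrix Y Y ℂ) (hw : (fromBlocks P B Bᴴ Q).PosSemidef) :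
    a * (St P - Real.negMulLog P.trace.re) + (b + c) * (St Q - Real.negMulLog Q.trace.re)
      + Real.negMulLog (lamP (a * P.trace.re) (b * Q.trace.re) (c * Q.trace.re))
      + Real.negMulLog (lamM (a * P.trace.re) (b * Q.trace.re) (c * Q.trace.re)) ≤
      St (fromBlocks (((a : ℝ) : ℂ) • P + ((b : ℝ) : ℂ) • Q) (((κ : ℝ) : ℂ) • B)
        (((κ : ℝ) : ℂ) • Bᴴ) (((c : ℝ) : ℂ) • Q)) := by
  have hP : P.PosSemidef := posSemidef_block₁₁ _ _ _ _ hw
  have hQ : Q.PosSemidef := posSemidef_block₂₂ _ _ _ _ hw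
  set p := P.trace.re with hp
  set q := Q.trace.re with hq
  have hp0 : 0 ≤ p := (trace_eq_ofReal hP).2
  have hq0 : 0 ≤ q := (trace_eq_ofReal hQ).2
  rcases (add_nonneg hb hc).eq_or_lt with he | he
  · have hb' : b = 0 := by linarith
    have hc' : c = 0 := by linarith
    have hκ' : κ = 0 := by
      have : κ ^ 2 = 0 := by rw [hκ, hc', mul_zero]
      exact pow_eq_zero_iff (two_ne_zero) |>.1 this
    subst hb' hc' hκ'
    have hm : fromBlocks (((a : ℝ) : ℂ) • P + ((0 : ℝ) : ℂ) • Q) (((0 : ℝ) : ℂ) • B)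
        (((0 : ℝ) : ℂ) • Bᴴ) (((0 : ℝ) : ℂ) • Q) = fromBlocks (((a : ℝ) : ℂ) • P) 0 0 0 := by
      simp
    have haP : (((a : ℝ) : ℂ) • P).PosSemidef := hP.smul (by exact_mod_cast ha)
    rw [hm, St_fromBlocks_diag _ _ haP Matrix.PosSemidef.zero, St_zero]
    have h1 := St_smul_sub P hP a ha
    have h2 := Gsc_eq_of_roots (x := a * p) (y := 0 * q) (z := 0 * q) (a := a * p) (b := 0)
      (mul_nonneg ha hp0) (by simp) (by simp) (by simp) (by simp)
    unfold Gsc at h2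
    simp only [zero_mul, Real.negMulLog_zero, sub_zero, add_zero] at h2 ⊢
    linarith
  · set e := b + c with hedef
    set γ := b / e with hγ
    have hγ0 : 0 ≤ γ := div_nonneg hb he.le
    have hγ1 : γ ≤ 1 := by
      rw [hγ, div_le_one he]; linarith
    have hγe : γ * e = b := div_mul_cancel₀ _ he.ne'
    have h1γe : (1 - γ) * e = c := by
      rw [sub_mul, hγe, one_mul, hedef]; ring
    have hw' := posSemidef_scale (Real.sqrt a) (Real.sqrt e) hw
    rw [Real.mul_self_sqrt ha, Real.mul_self_sqrt he.le] at hw'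
    have hBH : (((Real.sqrt a * Real.sqrt e : ℝ) : ℂ) • B)ᴴ =
        ((Real.sqrt a * Real.sqrt e : ℝ) : ℂ) • Bᴴ := by
      rw [conjTranspose_smul, RCLike.star_def, Complex.conj_ofReal]
    rw [← hBH] at hw'
    have h := L0u γ hγ0 hγ1 _ _ _ hw'
    have hκeq : Real.sqrt (1 - γ) * (Real.sqrt a * Real.sqrt e) = κ := by
      rw [← Real.sqrt_mul ha, ← Real.sqrt_mul (by linarith)]
      have : (1 - γ) * (a * e) = κ ^ 2 := by
        rw [hκ, ← h1γe]; ring
      rw [this, Real.sqrt_sq hκ0]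
    have hOm : OmB γ (((a : ℝ) : ℂ) • P) (((Real.sqrt a * Real.sqrt e : ℝ) : ℂ) • B)
        (((Real.sqrt a * Real.sqrt e : ℝ) : ℂ) • B)ᴴ (((e : ℝ) : ℂ) • Q) =
        fromBlocks (((a : ℝ) : ℂ) • P + ((b : ℝ) : ℂ) • Q) (((κ : ℝ) : ℂ) • B)
        (((κ : ℝ) : ℂ) • Bᴴ) (((c : ℝ) : ℂ) • Q) := by
      unfold OmB
      rw [hBH, smul_smul, smul_smul, smul_smul, smul_smul, ← Complex.ofReal_mul,
        ← Complex.ofReal_mul, ← Complex.ofReal_mul, hγe, h1γe, hκeq]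
    rw [hOm, trace_re_smul, trace_re_smul] at h
    unfold outE at h
    rw [← mul_assoc, ← mul_assoc, hγe, h1γe] at h
    have h1 := St_smul_sub P hP a ha
    have h2 := St_smul_sub Q hQ e he.le
    linarith

/-- Flipped form of the scaled inequality (pattern `[[C, 0], [A, B]]`). -/
theorem L0_scaled_flip (a b c κ : ℝ) (ha : 0 ≤ a) (hb : 0 ≤ b) (hc : 0 ≤ c) (hκ0 : 0 ≤ κ)
    (hκ : κ ^ 2 = a * c) (P B Q : Matrix Y Y ℂ) (hw : (fromBlocks P B Bᴴ Q).PosSemidef) :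
    (a + b) * (St P - Real.negMulLog P.trace.re) + c * (St Q - Real.negMulLog Q.trace.re)
      + Real.negMulLog (lamP (c * Q.trace.re) (b * P.trace.re) (a * P.trace.re))
      + Real.negMulLog (lamM (c * Q.trace.re) (b * P.trace.re) (a * P.trace.re)) ≤
      St (fromBlocks (((a : ℝ) : ℂ) • P) (((κ : ℝ) : ℂ) • B)
        (((κ : ℝ) : ℂ) • Bᴴ) (((b : ℝ) : ℂ) • P + ((c : ℝ) : ℂ) • Q)) := by
  have hw' : (fromBlocks Q Bᴴ Bᴴᴴ P).PosSemidef := by
    have := hw.submatrix (Sum.swap : Y ⊕ Y → Y ⊕ Y)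
    rw [fromBlocks_submatrix_sum_swap_sum_swap] at this
    rwa [conjTranspose_conjTranspose]
  have h := L0_scaled c b a κ hc hb ha hκ0 (by rw [hκ]; ring) Q Bᴴ P hw'
  rw [conjTranspose_conjTranspose] at h
  have hpsd : (fromBlocks (((a : ℝ) : ℂ) • P) (((κ : ℝ) : ℂ) • B)
        (((κ : ℝ) : ℂ) • Bᴴ) (((b : ℝ) : ℂ) • P + ((c : ℝ) : ℂ) • Q)).PosSemidef := by
    have hP : P.PosSemidef := posSemidef_block₁₁ _ _ _ _ hw
    have h1 := posSemidef_scale (Real.sqrt a) (Real.sqrt c) hw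
    rw [Real.mul_self_sqrt ha, Real.mul_self_sqrt hc] at h1
    have hκeq : Real.sqrt a * Real.sqrt c = κ := by
      rw [← Real.sqrt_mul ha, ← hκ, Real.sqrt_sq hκ0]
    rw [hκeq] at h1
    have h2 := posSemidef_fromBlocks_diag (0 : Matrix Y Y ℂ) (((b : ℝ) : ℂ) • P)
      Matrix.PosSemidef.zero (hP.smul (by exact_mod_cast hb))
    have h3 := h1.add h2
    rw [fromBlocks_add] at h3
    simpa [add_comm] using h3
  have he := St_submatrix_equiv _ hpsd (Equiv.sumComm Y Y)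
  have hs : (fromBlocks (((a : ℝ) : ℂ) • P) (((κ : ℝ) : ℂ) • B)
        (((κ : ℝ) : ℂ) • Bᴴ) (((b : ℝ) : ℂ) • P + ((c : ℝ) : ℂ) • Q)).submatrix
        (Equiv.sumComm Y Y) (Equiv.sumComm Y Y) =
      fromBlocks (((c : ℝ) : ℂ) • Q + ((b : ℝ) : ℂ) • P) (((κ : ℝ) : ℂ) • Bᴴ)
        (((κ : ℝ) : ℂ) • B) (((a : ℝ) : ℂ) • P) := by
    have hco : ((Equiv.sumComm Y Y : Y ⊕ Y ≃ Y ⊕ Y) : Y ⊕ Y → Y ⊕ Y) = Sum.swap := rfl
    rw [hco, fromBlocks_submatrix_sum_swap_sum_swap, add_comm]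
  rw [hs] at he
  rw [he] at h
  linarith

end Vale.Agent.P358
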