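import Vale.Agent.P358.AD.L0
import Vale.Agent.P358.GAD.Scaled

/-!
Rescaled forms of the entropy inequality `L0u` (amplitude damping type and reversed type).
-/

namespace Vale.Agent.P358
open Matrix
open scoped ComplexOrder

variable {Y : Type*} [Fintype Y] [DecidableEq Y]

/-- `L0u` applied to the congruence `diag(k0, c) w diag(k0, c)` with `c ^ 2 = b + k1 ^ 2` and
damping parameter `b / c ^ 2`. -/
theorem L0u_scaled (k0 k1 b : ℝ) (hk0 : 0 ≤ k0) (hk1 : 0 ≤ k1) (hb : 0 < b)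
    (P B Q : Matrix Y Y ℂ) (hw : (fromBlocks P B Bᴴ Q).PosSemidef) :
    (fromBlocks (((k0 ^ 2 : ℝ) : ℂ) • P + ((b : ℝ) : ℂ) • Q) (((k0 * k1 : ℝ) : ℂ) • B)
      (((k0 * k1 : ℝ) : ℂ) • Bᴴ) (((k1 ^ 2 : ℝ) : ℂ) • Q)).PosSemidef ∧
    k0 ^ 2 * (St P - Real.negMulLog P.trace.re) + (b + k1 ^ 2) * (St Q - Real.negMulLog Q.trace.re)
      + (Real.negMulLog (lamP (k0 ^ 2 * P.trace.re) (b * Q.trace.re) (k1 ^ 2 * Q.trace.re))
        + Real.negMulLog (lamM (k0 ^ 2 * P.trace.re) (b * Q.trace.re) (k1 ^ 2 * Q.trace.re))) ≤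
      St (fromBlocks (((k0 ^ 2 : ℝ) : ℂ) • P + ((b : ℝ) : ℂ) • Q) (((k0 * k1 : ℝ) : ℂ) • B)
        (((k0 * k1 : ℝ) : ℂ) • Bᴴ) (((k1 ^ 2 : ℝ) : ℂ) • Q)) := by
  have hQ : Q.PosSemidef := posSemidef_block₂₂ _ _ _ _ hw
  refine ⟨?_, ?_⟩
  · have h1 := posSemidef_scale k0 k1 hw
    have h2 := posSemidef_fromBlocks_diag (((b : ℝ) : ℂ) • Q) (0 : Matrix Y Y ℂ)
      (hQ.smul (by exact_mod_cast hb.le)) Matrix.PosSemidef.zero
    have h3 := h1.add h2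
    rw [fromBlocks_add] at h3
    simpa [pow_two] using h3
  · have h := L0_scaled (k0 ^ 2) b (k1 ^ 2) (k0 * k1) (sq_nonneg _) hb.le (sq_nonneg _)
      (mul_nonneg hk0 hk1) (by ring) P B Q hw
    linarith

/-- The same with the two block rows and columns exchanged (`St_submatrix_equiv` with
`Equiv.sumComm`, `L0u_scaled` for `fromBlocks Q Bᴴ B P`). -/
theorem L0u_scaled_flip (l0 l1 a : ℝ) (hl0 : 0 ≤ l0) (hl1 : 0 ≤ l1) (ha : 0 < a)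
    (P B Q : Matrix Y Y ℂ) (hw : (fromBlocks P B Bᴴ Q).PosSemidef) :
    (fromBlocks (((l0 ^ 2 : ℝ) : ℂ) • P) (((l0 * l1 : ℝ) : ℂ) • B)
      (((l0 * l1 : ℝ) : ℂ) • Bᴴ) (((a : ℝ) : ℂ) • P + ((l1 ^ 2 : ℝ) : ℂ) • Q)).PosSemidef ∧
    (l0 ^ 2 + a) * (St P - Real.negMulLog P.trace.re) + l1 ^ 2 * (St Q - Real.negMulLog Q.trace.re)
      + (Real.negMulLog (lamP (l1 ^ 2 * Q.trace.re) (a * P.trace.re) (l0 ^ 2 * P.trace.re))
        + Real.negMulLog (lamM (l1 ^ 2 * Q.trace.re) (a * P.trace.re) (l0 ^ 2 * P.trace.re))) ≤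
      St (fromBlocks (((l0 ^ 2 : ℝ) : ℂ) • P) (((l0 * l1 : ℝ) : ℂ) • B)
        (((l0 * l1 : ℝ) : ℂ) • Bᴴ) (((a : ℝ) : ℂ) • P + ((l1 ^ 2 : ℝ) : ℂ) • Q)) := by
  have hP : P.PosSemidef := posSemidef_block₁₁ _ _ _ _ hw
  refine ⟨?_, ?_⟩
  · have h1 := posSemidef_scale l0 l1 hw
    have h2 := posSemidef_fromBlocks_diag (0 : Matrix Y Y ℂ) (((a : ℝ) : ℂ) • P)
      Matrix.PosSemidef.zero (hP.smul (by exact_mod_cast ha.le))
    have h3 := h1.add h2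
    rw [fromBlocks_add] at h3
    simpa [pow_two, add_comm] using h3
  · have h := L0_scaled_flip (l0 ^ 2) a (l1 ^ 2) (l0 * l1) (sq_nonneg _) ha.le (sq_nonneg _)
      (mul_nonneg hl0 hl1) (by ring) P B Q hw
    linarith

end Vale.Agent.P358
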