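import Vale.Agent.P358.GAD.L0Scal
import Vale.Agent.P358.GAD.L0Scaled
import Vale.Agent.P358.GAD.L0Rot
import Vale.Agent.P358.GAD.StConc
import Vale.Agent.P358.GAD.Chan

/-!
The key entropy inequality (lemma L0) for the generalized amplitude damping channel, all parameters.
For a fixed pair of populations the two diagonal Kraus operators are rotated so that the channel is
a sum of an amplitude damping type map and a reversed one whose outputs on the pure model state are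
proportional; then `L0u` is used twice, together with concavity of the entropy.
-/

namespace Vale.Agent.P358
open Matrix
open scoped ComplexOrder

variable {Y : Type*} [Fintype Y] [DecidableEq Y]

/-- the case `γ ν = 0`: amplitude damping. -/
theorem L0G_ad (γ ν : ℝ) (h0 : 0 ≤ γ) (h1 : γ ≤ 1) (hn0 : 0 ≤ ν) (hn1 : ν ≤ 1) (hz : γ * ν = 0)
    (P B Q : Matrix Y Y ℂ) (hw : (fromBlocks P B Bᴴ Q).PosSemidef) :
    St P + St Q + St (omG γ ν P.trace.re Q.trace.re) - Real.negMulLog P.trace.re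
      - Real.negMulLog Q.trace.re ≤ St (OmG γ ν P B Bᴴ Q) := by
  have hP : P.PosSemidef := posSemidef_block₁₁ _ _ _ _ hw
  have hQ : Q.PosSemidef := posSemidef_block₂₂ _ _ _ _ hw
  have hp := (trace_eq_ofReal hP).2
  have hq := (trace_eq_ofReal hQ).2
  have h2 : γ * (1 - ν) = γ := by
    have : γ * (1 - ν) = γ - γ * ν := by ring
    rw [this, hz, sub_zero]
  have hOm : OmG γ ν P B Bᴴ Q = OmB γ P B Bᴴ Q := by
    unfold OmG OmB
    rw [hz, h2]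
    simp
  have hL := L0u γ h0 h1 P B Q hw
  have hS := St_omG_scaled γ ν P.trace.re Q.trace.re h0 h1 hn0 hn1 hp hq 1 P.trace.re
    (γ * Q.trace.re) ((1 - γ) * Q.trace.re) zero_le_one hp (mul_nonneg h0 hq)
    (mul_nonneg (by linarith) hq) (by ring)
    (by unfold Dg; rw [hz, h2]; ring)
  rw [hOm]
  unfold outE at hL
  simp only [one_mul, Real.negMulLog_one, zero_mul, add_zero] at hS
  linarith

/-- the case `γ (1 - ν) = 0`, `0 < γ ν`: reversed amplitude damping. -/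
theorem L0G_rad (γ ν : ℝ) (h0 : 0 ≤ γ) (h1 : γ ≤ 1) (hn0 : 0 ≤ ν) (hn1 : ν ≤ 1)
    (hz : γ * (1 - ν) = 0) (hpos : 0 < γ * ν)
    (P B Q : Matrix Y Y ℂ) (hw : (fromBlocks P B Bᴴ Q).PosSemidef) :
    St P + St Q + St (omG γ ν P.trace.re Q.trace.re) - Real.negMulLog P.trace.re
      - Real.negMulLog Q.trace.re ≤ St (OmG γ ν P B Bᴴ Q) := by
  have hP : P.PosSemidef := posSemidef_block₁₁ _ _ _ _ hw
  have hQ : Q.PosSemidef := posSemidef_block₂₂ _ _ _ _ hw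
  have hp := (trace_eq_ofReal hP).2
  have hq := (trace_eq_ofReal hQ).2
  have h2 : γ * ν = γ := by
    have : γ * ν = γ - γ * (1 - ν) := by ring
    rw [this, hz, sub_zero]
  have hs2 : Real.sqrt (1 - γ) ^ 2 = 1 - γ := Real.sq_sqrt (by linarith)
  obtain ⟨-, hL⟩ := L0u_scaled_flip (Real.sqrt (1 - γ)) 1 (γ * ν) (Real.sqrt_nonneg _) zero_le_one
    hpos P B Q hw
  have hOm : OmG γ ν P B Bᴴ Q =
      fromBlocks (((Real.sqrt (1 - γ) ^ 2 : ℝ) : ℂ) • P) (((Real.sqrt (1 - γ) * 1 : ℝ) : ℂ) • B)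
        (((Real.sqrt (1 - γ) * 1 : ℝ) : ℂ) • Bᴴ)
        (((γ * ν : ℝ) : ℂ) • P + (((1 : ℝ) ^ 2 : ℝ) : ℂ) • Q) := by
    unfold OmG
    rw [hs2, hz, h2]
    simp
  have hS := St_omG_scaled γ ν P.trace.re Q.trace.re h0 h1 hn0 hn1 hp hq 1 (1 ^ 2 * Q.trace.re)
    (γ * ν * P.trace.re) (Real.sqrt (1 - γ) ^ 2 * P.trace.re) zero_le_one
    (mul_nonneg (by norm_num) hq) (mul_nonneg hpos.le hp) (mul_nonneg (sq_nonneg _) hp)
    (by rw [hs2, h2]; ring)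
    (by unfold Dg; rw [hs2, hz, h2]; ring)
  rw [hOm]
  simp only [one_mul, Real.negMulLog_one, zero_mul, add_zero] at hS
  rw [hS, hs2, h2] at hL
  have e : (1 - γ + γ) * (St P - Real.negMulLog P.trace.re) = St P - Real.negMulLog P.trace.re := by
    ring
  rw [e] at hL
  rw [hs2, h2]
  linarith

/-- existence of the rotated Kraus coefficients. -/
theorem rot_exists (γ ν p q : ℝ) (h0 : 0 ≤ γ) (h1 : γ ≤ 1) (hn0 : 0 ≤ ν) (hn1 : ν ≤ 1)
    (ha' : 0 < γ * ν) (hb : 0 < γ * (1 - ν)) (hp : 0 ≤ p) (hq : 0 ≤ q) (hT : 0 < p + q) :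
    ∃ k0 k1 l0 l1 lam mu : ℝ, 0 ≤ k0 ∧ 0 ≤ k1 ∧ 0 ≤ l0 ∧ 0 ≤ l1 ∧ 0 ≤ lam ∧ 0 ≤ mu ∧
      lam + mu = 1 ∧ k0 ^ 2 + l0 ^ 2 = 1 - γ * ν ∧ k1 ^ 2 + l1 ^ 2 = 1 - γ * (1 - ν) ∧
      k0 * k1 + l0 * l1 = Real.sqrt (1 - γ) ∧
      k0 ^ 2 * p + γ * (1 - ν) * q + k1 ^ 2 * q = lam * (p + q) ∧
      l1 ^ 2 * q + γ * ν * p + l0 ^ 2 * p = mu * (p + q) ∧
      γ * (1 - ν) * q * (k1 ^ 2 * q) = lam ^ 2 * Dg γ ν p q ∧
      γ * ν * p * (l0 ^ 2 * p) = mu ^ 2 * Dg γ ν p q := by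
  have hs2 : Real.sqrt (1 - γ) ^ 2 = 1 - γ := Real.sq_sqrt (by linarith)
  have hs0 : 0 ≤ Real.sqrt (1 - γ) := Real.sqrt_nonneg _
  have ha : 0 < 1 - γ * ν := by nlinarith
  have hb' : 0 < 1 - γ * (1 - ν) := by nlinarith
  have ht0 : 0 ≤ (1 - γ * ν) * p + γ * (1 - ν) * q := by positivity
  have ht1 : 0 ≤ γ * ν * p + (1 - γ * (1 - ν)) * q := by positivity
  have hDdef : Dg γ ν p q = (1 - γ * ν) * (γ * ν) * p ^ 2 + 2 * (γ * ν) * (γ * (1 - ν)) * (p * q)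
      + (γ * (1 - ν)) * (1 - γ * (1 - ν)) * q ^ 2 := rfl
  have hD : 0 < Dg γ ν p q := by
    rw [hDdef]
    rcases hp.eq_or_lt with hp0 | hp0
    · have hq0 : 0 < q := by linarith
      have : 0 < (γ * (1 - ν)) * (1 - γ * (1 - ν)) * q ^ 2 := by positivity
      have h3 : 0 ≤ (1 - γ * ν) * (γ * ν) * p ^ 2 := by positivity
      have h4 : 0 ≤ 2 * (γ * ν) * (γ * (1 - ν)) * (p * q) := by positivity
      linarith
    · have : 0 < (1 - γ * ν) * (γ * ν) * p ^ 2 := by positivity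
      have h3 : 0 ≤ (γ * (1 - ν)) * (1 - γ * (1 - ν)) * q ^ 2 := by positivity
      have h4 : 0 ≤ 2 * (γ * ν) * (γ * (1 - ν)) * (p * q) := by positivity
      linarith
  generalize Dg γ ν p q = D at hDdef hD ⊢
  obtain ⟨E1, E2, E3, E4, E5, E6, E7⟩ := rot_identities (1 - γ * ν) (γ * (1 - ν)) (γ * ν)
    (1 - γ * (1 - ν)) (1 - γ) p q D (by ring) hDdef hD.ne'
  have hrD : Real.sqrt D ^ 2 = D := Real.sq_sqrt hD.le
  have hrD0 : 0 < Real.sqrt D := Real.sqrt_pos.2 hD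
  have hrb : Real.sqrt (γ * (1 - ν)) ^ 2 = γ * (1 - ν) := Real.sq_sqrt hb.le
  have hra : Real.sqrt (γ * ν) ^ 2 = γ * ν := Real.sq_sqrt ha'.le
  generalize (1 - γ * ν) * p + γ * (1 - ν) * q = t0 at ht0 E1 E2 E3 E4 E5 E6 E7
  generalize γ * ν * p + (1 - γ * (1 - ν)) * q = t1 at ht1 E1 E2 E3 E4 E5 E6 E7
  have hTT : (1 - γ * ν + γ * ν) * p + (γ * (1 - ν) + (1 - γ * (1 - ν))) * q = p + q := by ring
  rw [hTT] at E4 E5
  have k0sq : (Real.sqrt (γ * (1 - ν)) * Real.sqrt (1 - γ) * q / Real.sqrt D) ^ 2 =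
      γ * (1 - ν) * (1 - γ) * q ^ 2 / D := by
    rw [div_pow, mul_pow, mul_pow, hrb, hs2, hrD]
  have k1sq : (Real.sqrt (γ * (1 - ν)) * t1 / Real.sqrt D) ^ 2 = γ * (1 - ν) * t1 ^ 2 / D := by
    rw [div_pow, mul_pow, hrb, hrD]
  have l0sq : (Real.sqrt (γ * ν) * t0 / Real.sqrt D) ^ 2 = γ * ν * t0 ^ 2 / D := by
    rw [div_pow, mul_pow, hra, hrD]
  have l1sq : (Real.sqrt (γ * ν) * Real.sqrt (1 - γ) * p / Real.sqrt D) ^ 2 =
      γ * ν * (1 - γ) * p ^ 2 / D := by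
    rw [div_pow, mul_pow, mul_pow, hra, hs2, hrD]
  have k01 : (Real.sqrt (γ * (1 - ν)) * Real.sqrt (1 - γ) * q / Real.sqrt D) *
      (Real.sqrt (γ * (1 - ν)) * t1 / Real.sqrt D) =
      (γ * (1 - ν) * q * t1 / D) * Real.sqrt (1 - γ) := by
    rw [div_mul_div_comm, ← pow_two (Real.sqrt D), hrD]
    have : Real.sqrt (γ * (1 - ν)) * Real.sqrt (1 - γ) * q * (Real.sqrt (γ * (1 - ν)) * t1) =
        Real.sqrt (γ * (1 - ν)) ^ 2 * q * t1 * Real.sqrt (1 - γ) := by ring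
    rw [this, hrb]
    ring
  have l01 : (Real.sqrt (γ * ν) * t0 / Real.sqrt D) *
      (Real.sqrt (γ * ν) * Real.sqrt (1 - γ) * p / Real.sqrt D) =
      (γ * ν * p * t0 / D) * Real.sqrt (1 - γ) := by
    rw [div_mul_div_comm, ← pow_two (Real.sqrt D), hrD]
    have : Real.sqrt (γ * ν) * t0 * (Real.sqrt (γ * ν) * Real.sqrt (1 - γ) * p) =
        Real.sqrt (γ * ν) ^ 2 * p * t0 * Real.sqrt (1 - γ) := by ring
    rw [this, hra]
    ring
  refine ⟨Real.sqrt (γ * (1 - ν)) * Real.sqrt (1 - γ) * q / Real.sqrt D,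
    Real.sqrt (γ * (1 - ν)) * t1 / Real.sqrt D, Real.sqrt (γ * ν) * t0 / Real.sqrt D,
    Real.sqrt (γ * ν) * Real.sqrt (1 - γ) * p / Real.sqrt D, γ * (1 - ν) * q * t1 / D,
    γ * ν * p * t0 / D, by positivity, by positivity, by positivity, by positivity, by positivity,
    by positivity, E3, ?_, ?_, ?_, ?_, ?_, ?_, ?_⟩
  · rw [k0sq, l0sq]; exact E1
  · rw [k1sq, l1sq]; exact E2
  · rw [k01, l01, ← add_mul, E3, one_mul]
  · rw [k0sq, k1sq]; exact E4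
  · rw [l1sq, l0sq]; exact E5
  · rw [k1sq]; exact E6
  · rw [l0sq]; exact E7

/-- the sum decomposition of `OmG`. -/
theorem OmG_eq_add (γ ν k0 k1 l0 l1 : ℝ) (F1 : k0 ^ 2 + l0 ^ 2 = 1 - γ * ν)
    (F2 : k1 ^ 2 + l1 ^ 2 = 1 - γ * (1 - ν)) (F3 : k0 * k1 + l0 * l1 = Real.sqrt (1 - γ))
    (P B C Q : Matrix Y Y ℂ) :
    OmG γ ν P B C Q =
      fromBlocks (((k0 ^ 2 : ℝ) : ℂ) • P + ((γ * (1 - ν) : ℝ) : ℂ) • Q) (((k0 * k1 : ℝ) : ℂ) • B)
        (((k0 * k1 : ℝ) : ℂ) • C) (((k1 ^ 2 : ℝ) : ℂ) • Q) +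
      fromBlocks (((l0 ^ 2 : ℝ) : ℂ) • P) (((l0 * l1 : ℝ) : ℂ) • B)
        (((l0 * l1 : ℝ) : ℂ) • C) (((γ * ν : ℝ) : ℂ) • P + ((l1 ^ 2 : ℝ) : ℂ) • Q) := by
  unfold OmG
  rw [fromBlocks_add, ← F1, ← F2, ← F3]
  congr 1
  · push_cast; module
  · push_cast; module
  · push_cast; module
  · push_cast; module

/-- the main case: both transition rates positive, nonzero total trace. -/
theorem L0G_main (γ ν : ℝ) (h0 : 0 ≤ γ) (h1 : γ ≤ 1) (hn0 : 0 ≤ ν) (hn1 : ν ≤ 1)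
    (ha' : 0 < γ * ν) (hb : 0 < γ * (1 - ν))
    (P B Q : Matrix Y Y ℂ) (hw : (fromBlocks P B Bᴴ Q).PosSemidef)
    (hT : 0 < P.trace.re + Q.trace.re) :
    St P + St Q + St (omG γ ν P.trace.re Q.trace.re) - Real.negMulLog P.trace.re
      - Real.negMulLog Q.trace.re ≤ St (OmG γ ν P B Bᴴ Q) := by
  have hP : P.PosSemidef := posSemidef_block₁₁ _ _ _ _ hw
  have hQ : Q.PosSemidef := posSemidef_block₂₂ _ _ _ _ hw
  have hp := (trace_eq_ofReal hP).2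
  have hq := (trace_eq_ofReal hQ).2
  obtain ⟨k0, k1, l0, l1, lam, mu, hk0n, hk1n, hl0n, hl1n, hlamn, hmun, hlm, F1, F2, F3, F4, F5,
    F6, F7⟩ := rot_exists γ ν P.trace.re Q.trace.re h0 h1 hn0 hn1 ha' hb hp hq hT
  obtain ⟨hpsd1, hL1⟩ := L0u_scaled k0 k1 (γ * (1 - ν)) hk0n hk1n hb P B Q hw
  obtain ⟨hpsd2, hL2⟩ := L0u_scaled_flip l0 l1 (γ * ν) hl0n hl1n ha' P B Q hw
  have hS1 := St_omG_scaled γ ν P.trace.re Q.trace.re h0 h1 hn0 hn1 hp hq lam (k0 ^ 2 * P.trace.re)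
    (γ * (1 - ν) * Q.trace.re) (k1 ^ 2 * Q.trace.re) hlamn (mul_nonneg (sq_nonneg _) hp)
    (mul_nonneg hb.le hq) (mul_nonneg (sq_nonneg _) hq) F4 F6
  have hS2 := St_omG_scaled γ ν P.trace.re Q.trace.re h0 h1 hn0 hn1 hp hq mu (l1 ^ 2 * Q.trace.re)
    (γ * ν * P.trace.re) (l0 ^ 2 * P.trace.re) hmun (mul_nonneg (sq_nonneg _) hq)
    (mul_nonneg ha'.le hp) (mul_nonneg (sq_nonneg _) hp) F5 F7
  rw [hS1] at hL1
  rw [hS2] at hL2
  have hc := St_add_ge _ _ hpsd1 hpsd2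
  have htr1 : (fromBlocks (((k0 ^ 2 : ℝ) : ℂ) • P + ((γ * (1 - ν) : ℝ) : ℂ) • Q)
      (((k0 * k1 : ℝ) : ℂ) • B) (((k0 * k1 : ℝ) : ℂ) • Bᴴ) (((k1 ^ 2 : ℝ) : ℂ) • Q)).trace.re =
      lam * (P.trace.re + Q.trace.re) := by
    rw [trace_fromBlocks', trace_add, trace_smul, trace_smul, trace_smul, ← F4]
    simp only [smul_eq_mul, Complex.add_re, Complex.re_ofReal_mul]
  have htr2 : (fromBlocks (((l0 ^ 2 : ℝ) : ℂ) • P) (((l0 * l1 : ℝ) : ℂ) • B)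
      (((l0 * l1 : ℝ) : ℂ) • Bᴴ) (((γ * ν : ℝ) : ℂ) • P + ((l1 ^ 2 : ℝ) : ℂ) • Q)).trace.re =
      mu * (P.trace.re + Q.trace.re) := by
    rw [trace_fromBlocks', trace_add, trace_smul, trace_smul, trace_smul, ← F5]
    simp only [smul_eq_mul, Complex.add_re, Complex.re_ofReal_mul]
    ring
  rw [← OmG_eq_add γ ν k0 k1 l0 l1 F1 F2 F3, htr1, htr2, ← add_mul, hlm, one_mul,
    Real.negMulLog_mul, Real.negMulLog_mul] at hc
  have hU : k0 ^ 2 * (St P - Real.negMulLog P.trace.re)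
      + (l0 ^ 2 + γ * ν) * (St P - Real.negMulLog P.trace.re) =
      St P - Real.negMulLog P.trace.re := by
    have : k0 ^ 2 + (l0 ^ 2 + γ * ν) = 1 := by linarith
    rw [← add_mul, this, one_mul]
  have hV : (γ * (1 - ν) + k1 ^ 2) * (St Q - Real.negMulLog Q.trace.re)
      + l1 ^ 2 * (St Q - Real.negMulLog Q.trace.re) = St Q - Real.negMulLog Q.trace.re := by
    have : γ * (1 - ν) + k1 ^ 2 + l1 ^ 2 = 1 := by linarith
    rw [← add_mul, this, one_mul]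
  have hW : lam * St (omG γ ν P.trace.re Q.trace.re) + mu * St (omG γ ν P.trace.re Q.trace.re) =
      St (omG γ ν P.trace.re Q.trace.re) := by
    rw [← add_mul, hlm, one_mul]
  have hX : lam * Real.negMulLog (P.trace.re + Q.trace.re)
      + mu * Real.negMulLog (P.trace.re + Q.trace.re) = Real.negMulLog (P.trace.re + Q.trace.re) := by
    rw [← add_mul, hlm, one_mul]
  linarith

/-- **Lemma L0 for the generalized amplitude damping channel** (unnormalised form). -/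
theorem L0G (γ ν : ℝ) (h0 : 0 ≤ γ) (h1 : γ ≤ 1) (hn0 : 0 ≤ ν) (hn1 : ν ≤ 1)
    (P B Q : Matrix Y Y ℂ) (hw : (fromBlocks P B Bᴴ Q).PosSemidef) :
    St P + St Q + St (omG γ ν P.trace.re Q.trace.re) - Real.negMulLog P.trace.re
      - Real.negMulLog Q.trace.re ≤ St (OmG γ ν P B Bᴴ Q) := by
  have hP : P.PosSemidef := posSemidef_block₁₁ _ _ _ _ hw
  have hQ : Q.PosSemidef := posSemidef_block₂₂ _ _ _ _ hw
  have hp := (trace_eq_ofReal hP).2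
  have hq := (trace_eq_ofReal hQ).2
  rcases (mul_nonneg h0 hn0).eq_or_lt with hz | ha'
  · exact L0G_ad γ ν h0 h1 hn0 hn1 hz.symm P B Q hw
  rcases (mul_nonneg h0 (sub_nonneg.2 hn1)).eq_or_lt with hz | hb
  · exact L0G_rad γ ν h0 h1 hn0 hn1 hz.symm ha' P B Q hw
  rcases (add_nonneg hp hq).eq_or_lt with hT | hT
  · have hp0 : P.trace.re = 0 := by linarith
    have hq0 : Q.trace.re = 0 := by linarith
    have hP0 : P = 0 := eq_zero_of_trace_re_eq_zero hP hp0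
    have hQ0 : Q = 0 := eq_zero_of_trace_re_eq_zero hQ hq0
    have hΩ := OmG_posSemidef γ ν h0 h1 hn0 hn1 hw
    have hΩ0 : OmG γ ν P B Bᴴ Q = 0 := by
      apply eq_zero_of_trace_re_eq_zero hΩ
      rw [OmG_trace, Complex.add_re, hp0, hq0, add_zero]
    have hom : omG γ ν 0 0 = 0 := by
      ext i j
      fin_cases i <;> fin_cases j <;> simp [omG]
    rw [hΩ0, hp0, hq0, hP0, hQ0, hom]
    simp [St_zero]
  · exact L0G_main γ ν h0 h1 hn0 hn1 ha' hb P B Q hw hT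

end Vale.Agent.P358
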