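import Vale.Agent.P358.GAD.AddFirstG
import Vale.Agent.P358.GAD.AddAvgG
import Vale.Agent.P358.GAD.L0nu
import Vale.Agent.P358.AD.AddSecond

/-!
Strong additivity of the Holevo capacity for generalized amplitude damping:
`χ (GADC ⊗ M) ≤ χ (GADC) + χ (M)`.
-/

namespace Vale.Agent.P358
open Matrix
open scoped ComplexOrder

variable {X Y : Type*} [Fintype X] [DecidableEq X] [Fintype Y] [DecidableEq Y]

theorem St_NMG_ge (γ ν : ℝ) (h0 : 0 ≤ γ) (h1 : γ ≤ 1) (hν0 : 0 ≤ ν) (hν1 : ν ≤ 1)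
    {M : Matrix X X ℂ → Matrix Y Y ℂ}
    (hM : GoodMap M) {ρ : Matrix (X ⊕ X) (X ⊕ X) ℂ} (hρ : IsState ρ) :
    (St (M ρ.toBlocks₁₁) - Real.negMulLog ρ.toBlocks₁₁.trace.re
      + (St (M ρ.toBlocks₂₂) - Real.negMulLog ρ.toBlocks₂₂.trace.re))
      + St (omG γ ν (1 - ρ.toBlocks₂₂.trace.re) ρ.toBlocks₂₂.trace.re) ≤ St (NMG γ ν M ρ) := by
  have hρ' : (fromBlocks ρ.toBlocks₁₁ ρ.toBlocks₁₂ ρ.toBlocks₂₁ ρ.toBlocks₂₂).PosSemidef := by
    rw [fromBlocks_toBlocks]; exact hρ.1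
  have h21 : M ρ.toBlocks₂₁ = (M ρ.toBlocks₁₂)ᴴ := by
    rw [toBlocks₂₁_eq_of_herm hρ.1.1, hM.map_conjTranspose]
  have hw := hM.block_posSemidef hρ'
  rw [h21] at hw
  have hL := L0G γ ν h0 h1 hν0 hν1 (M ρ.toBlocks₁₁) (M ρ.toBlocks₁₂) (M ρ.toBlocks₂₂) hw
  rw [hM.trace, hM.trace] at hL
  have htr := (state_blocks hρ).2.2
  have e1 : 1 - ρ.toBlocks₂₂.trace.re = ρ.toBlocks₁₁.trace.re := by linarith
  unfold NMG
  rw [h21, e1]
  linarith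

/-- **Strong additivity** (ensemble form), all parameters. -/
theorem holevoQuantity_NMG_le (γ ν : ℝ) (h0 : 0 ≤ γ) (h1 : γ ≤ 1) (hν0 : 0 ≤ ν) (hν1 : ν ≤ 1)
    {M : Matrix X X ℂ → Matrix Y Y ℂ}
    (hM : GoodMap M) {k : ℕ} (q : Fin k → ℝ) (ρ : Fin k → Matrix (X ⊕ X) (X ⊕ X) ℂ)
    (hE : IsEnsemble q ρ) :
    holevoQuantity (NMG γ ν M) q ρ ≤ holevoCapacity (gadc γ ν) + holevoCapacity M := by
  obtain ⟨hq, hq1, hst⟩ := hE
  have hl : 0 < Real.log 2 := log_two_pos'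
  have hb := fun a => state_blocks (hst a)
  have hr0 : ∀ a, 0 ≤ (ρ a).toBlocks₂₂.trace.re := fun a => (trace_eq_ofReal (hb a).2.1).2
  have hr1 : ∀ a, (ρ a).toBlocks₂₂.trace.re ≤ 1 := fun a => by
    have h2 := (trace_eq_ofReal (hb a).1).2
    have h3 := (hb a).2.2
    linarith
  have hA := St_avg_NMG_le γ ν h0 h1 hν0 hν1 hM q ρ ⟨hq, hq1, hst⟩
  have hF := first_bracketG γ ν h0 h1 hν0 hν1 q (fun a => (ρ a).toBlocks₂₂.trace.re) hq hq1 hr0 hr1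
  have hS := second_bracket hM q (fun a => (ρ a).toBlocks₁₁) (fun a => (ρ a).toBlocks₂₂) hq hq1
    (fun a => (hb a).1) (fun a => (hb a).2.1) (fun a => (hb a).2.2)
  have hG : ∑ a, q a * ((St (M (ρ a).toBlocks₁₁) - Real.negMulLog (ρ a).toBlocks₁₁.trace.re
      + (St (M (ρ a).toBlocks₂₂) - Real.negMulLog (ρ a).toBlocks₂₂.trace.re)))
      + ∑ a, q a * St (omG γ ν (1 - (ρ a).toBlocks₂₂.trace.re) (ρ a).toBlocks₂₂.trace.re)
      ≤ ∑ a, q a * St (NMG γ ν M (ρ a)) := by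
    rw [← Finset.sum_add_distrib]
    refine Finset.sum_le_sum fun a _ => ?_
    rw [← mul_add]
    exact mul_le_mul_of_nonneg_left (St_NMG_ge γ ν h0 h1 hν0 hν1 hM (hst a)) (hq a)
  have hmain : St (∑ a, (q a : ℂ) • NMG γ ν M (ρ a)) - ∑ a, q a * St (NMG γ ν M (ρ a)) ≤
      (holevoCapacity (gadc γ ν) + holevoCapacity M) * Real.log 2 := by
    linarith
  unfold holevoQuantity
  simp only [vnEntropy_eq_St]
  have e : St (∑ a, (q a : ℂ) • NMG γ ν M (ρ a)) / Real.log 2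
      - ∑ a, q a * (St (NMG γ ν M (ρ a)) / Real.log 2) =
      (St (∑ a, (q a : ℂ) • NMG γ ν M (ρ a)) - ∑ a, q a * St (NMG γ ν M (ρ a))) / Real.log 2 := by
    rw [sub_div, Finset.sum_div]
    congr 1
    exact Finset.sum_congr rfl fun a _ => by rw [mul_div_assoc]
  rw [e, div_le_iff₀ hl]
  exact hmain

end Vale.Agent.P358
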