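import Vale.Agent.P358.AD.Blk
import Vale.Agent.P358.GAD.DefsG

/-!
Splitting off the first qubit: `tensorPow (gadc γ ν) (n + 1)` in block form, all parameters.
-/

namespace Vale.Agent.P358
open Matrix
open scoped ComplexOrder

theorem tensorPow_succ_blocksG (γ ν : ℝ) (n : ℕ)
    (ρ : Matrix (Fin (n + 1) → Fin 2) (Fin (n + 1) → Fin 2) ℂ) :
    (tensorPow (gadc γ ν) (n + 1) ρ).submatrix (consE n) (consE n) =
      NMG γ ν (tensorPow (gadc γ ν) n) (ρ.submatrix (consE n) (consE n)) := by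
  have h11 : (ρ.submatrix (consE n) (consE n)).toBlocks₁₁ =
      fun u' v' => ρ (Fin.cons 0 u') (Fin.cons 0 v') := rfl
  have h12 : (ρ.submatrix (consE n) (consE n)).toBlocks₁₂ =
      fun u' v' => ρ (Fin.cons 0 u') (Fin.cons 1 v') := rfl
  have h21 : (ρ.submatrix (consE n) (consE n)).toBlocks₂₁ =
      fun u' v' => ρ (Fin.cons 1 u') (Fin.cons 0 v') := rfl
  have h22 : (ρ.submatrix (consE n) (consE n)).toBlocks₂₂ =
      fun u' v' => ρ (Fin.cons 1 u') (Fin.cons 1 v') := rfl
  have e0 : ∀ x : Fin n → Fin 2, consE n (Sum.inl x) = Fin.cons 0 x := fun _ => rfl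
  have e1 : ∀ x : Fin n → Fin 2, consE n (Sum.inr x) = Fin.cons 1 x := fun _ => rfl
  ext (x | x) (y | y)
  · simp only [submatrix_apply, e0, e1, tensorPow_succ_apply, Fin.sum_univ_two, NMG, OmG,
      fromBlocks_apply₁₁, h11, h12, h21, h22]
    simp [gadc, Matrix.single]
  · simp only [submatrix_apply, e0, e1, tensorPow_succ_apply, Fin.sum_univ_two, NMG, OmG,
      fromBlocks_apply₁₂, h11, h12, h21, h22]
    simp [gadc, Matrix.single]
  · simp only [submatrix_apply, e0, e1, tensorPow_succ_apply, Fin.sum_univ_two, NMG, OmG,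
      fromBlocks_apply₂₁, h11, h12, h21, h22]
    simp [gadc, Matrix.single]
  · simp only [submatrix_apply, e0, e1, tensorPow_succ_apply, Fin.sum_univ_two, NMG, OmG,
      fromBlocks_apply₂₂, h11, h12, h21, h22]
    simp [gadc, Matrix.single]

end Vale.Agent.P358
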