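import Vale.Agent.P358.GAD.Chan
import Vale.Agent.P358.AD.Bdd2
import Vale.Agent.P358.AD.CapBook

/-!
Tensor powers of the generalized amplitude damping channel are good maps.
-/

namespace Vale.Agent.P358
open Matrix
open scoped ComplexOrder

theorem goodMap_tensorPowG (γ ν : ℝ) (h0 : 0 ≤ γ) (h1 : γ ≤ 1) (hν0 : 0 ≤ ν) (hν1 : ν ≤ 1) (n : ℕ) :
    GoodMap (tensorPow (gadc γ ν) n) := by
  refine ⟨?_, fun A => tensorPow_trace γ ν n A⟩
  refine ⟨Fintype.card (Fin n → Fin 4),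
    fun j => Kn γ ν n ((Fintype.equivFin (Fin n → Fin 4)).symm j), fun A => ?_⟩
  rw [tensorPow_eq_kraus γ ν h0 h1 hν0 hν1]
  exact ((Fintype.equivFin (Fin n → Fin 4)).symm.sum_comp
    (fun j => Kn γ ν n j * A * (Kn γ ν n j)ᴴ)).symm

end Vale.Agent.P358
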