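import Vale.Agent.P358.GAD.AddG
import Vale.Agent.P358.GAD.FinalSuccG
import Vale.Agent.P358.AD.CapBook

/-!
`C = χ` for the generalized amplitude damping channel, all parameters.
-/

namespace Vale.Agent.P358
open Matrix
open scoped ComplexOrder

theorem holevoCapacity_succ_leG (γ ν : ℝ) (h0 : 0 ≤ γ) (h1 : γ ≤ 1) (hν0 : 0 ≤ ν) (hν1 : ν ≤ 1)
    (n : ℕ) :
    holevoCapacity (tensorPow (gadc γ ν) (n + 1)) ≤
      holevoCapacity (gadc γ ν) + holevoCapacity (tensorPow (gadc γ ν) n) := by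
  refine holevoCapacity_le_of_forall _ _
    (add_nonneg (holevoCapacity_nonneg _) (holevoCapacity_nonneg _)) ?_
  intro k q ρ hE
  obtain ⟨hE', heq⟩ := holevoQuantity_succ_eqG γ ν h0 h1 hν0 hν1 n q ρ hE
  rw [heq]
  exact holevoQuantity_NMG_le γ ν h0 h1 hν0 hν1 (goodMap_tensorPowG γ ν h0 h1 hν0 hν1 n) q _ hE'

theorem holevoCapacity_tensorPow_leG (γ ν : ℝ) (h0 : 0 ≤ γ) (h1 : γ ≤ 1) (hν0 : 0 ≤ ν) (hν1 : ν ≤ 1)
    (n : ℕ) :
    holevoCapacity (tensorPow (gadc γ ν) n) ≤ n * holevoCapacity (gadc γ ν) := by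
  induction n with
  | zero => simpa using holevoCapacity_tensorPow_zero γ ν h0 h1 hν0 hν1
  | succ n ih =>
    have := holevoCapacity_succ_leG γ ν h0 h1 hν0 hν1 n
    push_cast
    linarith

/-- **The classical capacity of the generalized amplitude damping channel equals its Holevo
capacity, for all parameters.** -/
theorem classicalCapacity_gadc (γ ν : ℝ) (h0 : 0 ≤ γ) (h1 : γ ≤ 1) (hν0 : 0 ≤ ν) (hν1 : ν ≤ 1) :
    classicalCapacity (gadc γ ν) = holevoCapacity (gadc γ ν) :=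
  classicalCapacity_gadc_eq_of_step γ ν h0 h1 hν0 hν1
    (holevoCapacity_succ_leG γ ν h0 h1 hν0 hν1) (holevoCapacity_tensorPow_zero γ ν h0 h1 hν0 hν1)

end Vale.Agent.P358
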