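import Vale.Agent.P358.GAD.DefsG
import Vale.Agent.P358.AD.ScalarG

/-!
Entropy of real symmetric positive semidefinite two by two matrices, and of the scalar model `omG`.
-/

namespace Vale.Agent.P358
open Matrix
open scoped ComplexOrder

/-- the larger root of `e ^ 2 - T e + D`. -/
noncomputable def rtP (T D : ℝ) : ℝ := (T + Real.sqrt (T ^ 2 - 4 * D)) / 2

/-- the smaller root of `e ^ 2 - T e + D`. -/
noncomputable def rtM (T D : ℝ) : ℝ := (T - Real.sqrt (T ^ 2 - 4 * D)) / 2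

lemma rtP_add_rtM (T D : ℝ) : rtP T D + rtM T D = T := by
  unfold rtP rtM
  ring

lemma rtP_mul_rtM {T D : ℝ} (h : 0 ≤ T ^ 2 - 4 * D) : rtP T D * rtM T D = D := by
  unfold rtP rtM
  have h2 := Real.sq_sqrt h
  have e : (T + Real.sqrt (T ^ 2 - 4 * D)) / 2 * ((T - Real.sqrt (T ^ 2 - 4 * D)) / 2) =
      (T ^ 2 - Real.sqrt (T ^ 2 - 4 * D) ^ 2) / 4 := by ring
  rw [e, h2]
  ring

lemma rtP_nonneg {T D : ℝ} (hT : 0 ≤ T) : 0 ≤ rtP T D := by
  unfold rtP
  have := Real.sqrt_nonneg (T ^ 2 - 4 * D)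
  positivity

lemma rtM_nonneg {T D : ℝ} (hT : 0 ≤ T) (hD : 0 ≤ D) : 0 ≤ rtM T D := by
  unfold rtM
  have h1 : Real.sqrt (T ^ 2 - 4 * D) ≤ Real.sqrt (T ^ 2) := Real.sqrt_le_sqrt (by linarith)
  rw [Real.sqrt_sq hT] at h1
  linarith

theorem posSemidef_two (a b c : ℝ) (ha : 0 ≤ a) (hb : 0 ≤ b) (hc : c ^ 2 ≤ a * b) :
    (!![(a : ℂ), (c : ℂ); (c : ℂ), (b : ℂ)]).PosSemidef := by
  set r := Real.sqrt a with hr
  set u := c / r with hu
  have hrr : r * r = a := Real.mul_self_sqrt ha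
  have hru : r * u = c := by
    rcases ha.eq_or_lt with h | h
    · have hc0 : c = 0 := by
        have : c ^ 2 ≤ 0 := by rw [← h] at hc; simpa using hc
        exact pow_eq_zero_iff (two_ne_zero) |>.1 (le_antisymm this (sq_nonneg c))
      rw [hu, hc0]; simp
    · have : r ≠ 0 := (Real.sqrt_pos.2 h).ne'
      rw [hu]; field_simp
  have huu : u * u ≤ b := by
    rcases ha.eq_or_lt with h | h
    · have hr0 : r = 0 := by rw [hr, ← h]; simp
      rw [hu, hr0]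
      simpa using hb
    · have hrp : 0 < r := Real.sqrt_pos.2 h
      have : a * (u * u) = c ^ 2 := by
        rw [← hrr, ← hru]; ring
      nlinarith
  set w := Real.sqrt (b - u * u) with hw
  have hww : u * u + w * w = b := by
    rw [hw, Real.mul_self_sqrt (by linarith)]; ring
  have key : !![(a : ℂ), (c : ℂ); (c : ℂ), (b : ℂ)] =
      (!![(r : ℂ), (u : ℂ); 0, (w : ℂ)])ᴴ * !![(r : ℂ), (u : ℂ); 0, (w : ℂ)] := by
    ext i j
    fin_cases i <;> fin_cases j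
    · simp [Matrix.mul_apply, Fin.sum_univ_two, conjTranspose_apply]
      rw [← Complex.ofReal_mul, hrr]
    · simp [Matrix.mul_apply, Fin.sum_univ_two, conjTranspose_apply]
      rw [← Complex.ofReal_mul, hru]
    · simp [Matrix.mul_apply, Fin.sum_univ_two, conjTranspose_apply]
      rw [← Complex.ofReal_mul, mul_comm, hru]
    · simp [Matrix.mul_apply, Fin.sum_univ_two, conjTranspose_apply]
      rw [← Complex.ofReal_mul, ← Complex.ofReal_mul, ← Complex.ofReal_add, hww]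
  rw [key]
  exact Matrix.posSemidef_conjTranspose_mul_self _

theorem St_two (a b c : ℝ) (ha : 0 ≤ a) (hb : 0 ≤ b) (hc : c ^ 2 ≤ a * b) :
    St !![(a : ℂ), (c : ℂ); (c : ℂ), (b : ℂ)] =
      Real.negMulLog (rtP (a + b) (a * b - c ^ 2)) + Real.negMulLog (rtM (a + b) (a * b - c ^ 2)) := by
  have hT : 0 ≤ a + b := add_nonneg ha hb
  have hD : 0 ≤ a * b - c ^ 2 := by linarith
  have hdisc : 0 ≤ (a + b) ^ 2 - 4 * (a * b - c ^ 2) := by nlinarith [sq_nonneg (a - b), sq_nonneg c]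
  have h := St_eq_sum_of_det (κ := Fin 2) !![(a : ℂ), (c : ℂ); (c : ℂ), (b : ℂ)]
    (posSemidef_two a b c ha hb hc)
    ![rtP (a + b) (a * b - c ^ 2), rtM (a + b) (a * b - c ^ 2)]
    (by
      intro j
      fin_cases j
      · exact rtP_nonneg hT
      · exact rtM_nonneg hT hD)
    rfl
    (by
      rw [Fin.sum_univ_two, Matrix.trace_fin_two]
      simp [rtP_add_rtM])
    (by
      intro s _
      rw [Fin.prod_univ_two, Matrix.det_fin_two]
      have e : (s + rtP (a + b) (a * b - c ^ 2)) * (s + rtM (a + b) (a * b - c ^ 2)) =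
          s * s + s * (rtP (a + b) (a * b - c ^ 2) + rtM (a + b) (a * b - c ^ 2)) +
            rtP (a + b) (a * b - c ^ 2) * rtM (a + b) (a * b - c ^ 2) := by ring
      simp only [Matrix.cons_val_zero, Matrix.cons_val_one]
      rw [e, rtP_add_rtM, rtP_mul_rtM hdisc]
      simp [Matrix.add_apply, Matrix.smul_apply, Matrix.one_apply]
      ring)
  rw [h, Fin.sum_univ_two]
  simp

/-- determinant of the scalar model. -/
noncomputable def DG (γ ν x t : ℝ) : ℝ :=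
  (1 - γ * ν) * (γ * ν) * x ^ 2 + 2 * (γ * ν) * (γ * (1 - ν)) * x * t
    + (γ * (1 - ν)) * (1 - γ * (1 - ν)) * t ^ 2

theorem DG_nonneg (γ ν x t : ℝ) (h0 : 0 ≤ γ) (h1 : γ ≤ 1) (hn0 : 0 ≤ ν) (hn1 : ν ≤ 1)
    (hx : 0 ≤ x) (ht : 0 ≤ t) : 0 ≤ DG γ ν x t := by
  have a1 : 0 ≤ γ * ν := mul_nonneg h0 hn0
  have a2 : 0 ≤ γ * (1 - ν) := mul_nonneg h0 (by linarith)
  have a3 : 0 ≤ 1 - γ * ν := by nlinarith
  have a4 : 0 ≤ 1 - γ * (1 - ν) := by nlinarith
  unfold DG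
  positivity

theorem St_omG (γ ν x t : ℝ) (h0 : 0 ≤ γ) (h1 : γ ≤ 1) (hn0 : 0 ≤ ν) (hn1 : ν ≤ 1)
    (hx : 0 ≤ x) (ht : 0 ≤ t) :
    St (omG γ ν x t) =
      Real.negMulLog (rtP (x + t) (DG γ ν x t)) + Real.negMulLog (rtM (x + t) (DG γ ν x t)) := by
  have a1 : 0 ≤ γ * ν := mul_nonneg h0 hn0
  have a2 : 0 ≤ γ * (1 - ν) := mul_nonneg h0 (by linarith)
  have a3 : 0 ≤ 1 - γ * ν := by nlinarith
  have a4 : 0 ≤ 1 - γ * (1 - ν) := by nlinarith
  have hc2 : (Real.sqrt (1 - γ) * Real.sqrt (x * t)) ^ 2 = (1 - γ) * (x * t) := by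
    rw [mul_pow, Real.sq_sqrt (by linarith), Real.sq_sqrt (mul_nonneg hx ht)]
  have hdet : ((1 - γ * ν) * x + γ * (1 - ν) * t) * (γ * ν * x + (1 - γ * (1 - ν)) * t)
      - (Real.sqrt (1 - γ) * Real.sqrt (x * t)) ^ 2 = DG γ ν x t := by
    rw [hc2]; unfold DG; ring
  have hD := DG_nonneg γ ν x t h0 h1 hn0 hn1 hx ht
  have h := St_two ((1 - γ * ν) * x + γ * (1 - ν) * t) (γ * ν * x + (1 - γ * (1 - ν)) * t)
    (Real.sqrt (1 - γ) * Real.sqrt (x * t)) (by positivity) (by positivity) (by linarith)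
  rw [hdet] at h
  have hs : (1 - γ * ν) * x + γ * (1 - ν) * t + (γ * ν * x + (1 - γ * (1 - ν)) * t) = x + t := by ring
  rw [hs] at h
  exact h

end Vale.Agent.P358
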