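import Vale.Agent.P358.GAD.L0Scaled
import Vale.Agent.P358.GAD.OmScal
import Vale.Agent.P358.GAD.StConc
import Vale.Agent.P358.GAD.Chan

/-!
The entropy inequality `L0G` in the degenerate cases.
-/

namespace Vale.Agent.P358
open Matrix
open scoped ComplexOrder

variable {Y : Type*} [Fintype Y] [DecidableEq Y]

theorem DG_disc (γ ν x t : ℝ) (h1 : γ ≤ 1) (hx : 0 ≤ x) (ht : 0 ≤ t) :
    0 ≤ (x + t) ^ 2 - 4 * DG γ ν x t := by
  have e : (x + t) ^ 2 - 4 * DG γ ν x t =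
      ((1 - 2 * (γ * ν)) * x - (1 - 2 * (γ * (1 - ν))) * t) ^ 2 + 4 * ((1 - γ) * (x * t)) := by
    unfold DG; ring
  rw [e]
  have : 0 ≤ (1 - γ) * (x * t) := mul_nonneg (by linarith) (mul_nonneg hx ht)
  positivity

/-- the entropy of the roots of a scaled copy of the scalar model. -/
theorem lam_eq_scaled (γ ν p q : ℝ) (h1 : γ ≤ 1) (hp : 0 ≤ p) (hq : 0 ≤ q) (lam x y z : ℝ)
    (hx : 0 ≤ x) (hy : 0 ≤ y) (hz : 0 ≤ z)
    (hsum : x + y + z = lam * (p + q)) (hprod : y * z = lam ^ 2 * DG γ ν p q) :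
    Real.negMulLog (lamP x y z) + Real.negMulLog (lamM x y z) =
      Real.negMulLog (lam * rtP (p + q) (DG γ ν p q))
      + Real.negMulLog (lam * rtM (p + q) (DG γ ν p q)) := by
  apply sg_pair
  · rw [lamP_add_lamM, hsum, ← mul_add, rtP_add_rtM]
  · rw [lamP_mul_lamM hx hy hz, hprod]
    have := rtP_mul_rtM (DG_disc γ ν p q h1 hp hq)
    calc lam ^ 2 * DG γ ν p q = lam ^ 2 * (rtP (p + q) (DG γ ν p q) * rtM (p + q) (DG γ ν p q)) := by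
          rw [this]
      _ = _ := by ring

theorem L0G_of_nu0 (γ ν : ℝ) (h0 : 0 ≤ γ) (h1 : γ ≤ 1) (hν0 : 0 ≤ ν) (hν1 : ν ≤ 1)
    (hz : γ * ν = 0) (P B Q : Matrix Y Y ℂ) (hw : (fromBlocks P B Bᴴ Q).PosSemidef) :
    St P + St Q + St (omG γ ν P.trace.re Q.trace.re) - Real.negMulLog P.trace.re
      - Real.negMulLog Q.trace.re ≤ St (OmG γ ν P B Bᴴ Q) := by
  have hP : P.PosSemidef := posSemidef_block₁₁ _ _ _ _ hw
  have hQ : Q.PosSemidef := posSemidef_block₂₂ _ _ _ _ hw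
  have hp := (trace_eq_ofReal hP).2
  have hq := (trace_eq_ofReal hQ).2
  have a2 : 0 ≤ γ * (1 - ν) := mul_nonneg h0 (by linarith)
  have a3 : 0 ≤ 1 - γ * ν := by nlinarith
  have a4 : 0 ≤ 1 - γ * (1 - ν) := by nlinarith
  have h := L0_scaled (1 - γ * ν) (γ * (1 - ν)) (1 - γ * (1 - ν)) (Real.sqrt (1 - γ)) a3 a2 a4
    (Real.sqrt_nonneg _) (by rw [Real.sq_sqrt (by linarith)]; nlinarith) P B Q hw
  rw [add_assoc] at h
  have hOm : OmG γ ν P B Bᴴ Q = fromBlocks (((1 - γ * ν : ℝ) : ℂ) • P + ((γ * (1 - ν) : ℝ) : ℂ) • Q)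
      ((Real.sqrt (1 - γ) : ℂ) • B) ((Real.sqrt (1 - γ) : ℂ) • Bᴴ)
      (((1 - γ * (1 - ν) : ℝ) : ℂ) • Q) := by
    unfold OmG
    rw [hz]
    simp
  rw [hOm]
  rw [lam_eq_scaled γ ν P.trace.re Q.trace.re h1 hp hq 1 _ _ _ (mul_nonneg a3 hp) (mul_nonneg a2 hq)
    (mul_nonneg a4 hq) (by rw [hz]; ring) (by unfold DG; rw [hz]; ring), one_mul, one_mul,
    ← St_omG γ ν _ _ h0 h1 hν0 hν1 hp hq] at h
  have e1 : 1 - γ * ν = 1 := by rw [hz]; ring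
  have e2 : γ * (1 - ν) + (1 - γ * (1 - ν)) = 1 := by ring
  rw [e2, e1] at h
  rw [e1]
  linarith

theorem L0G_of_nu1 (γ ν : ℝ) (h0 : 0 ≤ γ) (h1 : γ ≤ 1) (hν0 : 0 ≤ ν) (hν1 : ν ≤ 1)
    (hz : γ * (1 - ν) = 0) (P B Q : Matrix Y Y ℂ) (hw : (fromBlocks P B Bᴴ Q).PosSemidef) :
    St P + St Q + St (omG γ ν P.trace.re Q.trace.re) - Real.negMulLog P.trace.re
      - Real.negMulLog Q.trace.re ≤ St (OmG γ ν P B Bᴴ Q) := by
  have hP : P.PosSemidef := posSemidef_block₁₁ _ _ _ _ hw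
  have hQ : Q.PosSemidef := posSemidef_block₂₂ _ _ _ _ hw
  have hp := (trace_eq_ofReal hP).2
  have hq := (trace_eq_ofReal hQ).2
  have a1 : 0 ≤ γ * ν := mul_nonneg h0 hν0
  have a3 : 0 ≤ 1 - γ * ν := by nlinarith
  have a4 : 0 ≤ 1 - γ * (1 - ν) := by nlinarith
  have h := L0_scaled_flip (1 - γ * ν) (γ * ν) (1 - γ * (1 - ν)) (Real.sqrt (1 - γ)) a3 a1 a4
    (Real.sqrt_nonneg _) (by rw [Real.sq_sqrt (by linarith)]; nlinarith) P B Q hw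
  rw [add_assoc] at h
  have hOm : OmG γ ν P B Bᴴ Q = fromBlocks (((1 - γ * ν : ℝ) : ℂ) • P)
      ((Real.sqrt (1 - γ) : ℂ) • B) ((Real.sqrt (1 - γ) : ℂ) • Bᴴ)
      (((γ * ν : ℝ) : ℂ) • P + ((1 - γ * (1 - ν) : ℝ) : ℂ) • Q) := by
    unfold OmG
    rw [hz]
    simp
  rw [hOm]
  rw [lam_eq_scaled γ ν P.trace.re Q.trace.re h1 hp hq 1 _ _ _ (mul_nonneg a4 hq) (mul_nonneg a1 hp)
    (mul_nonneg a3 hp) (by rw [hz]; ring) (by unfold DG; rw [hz]; ring), one_mul, one_mul,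
    ← St_omG γ ν _ _ h0 h1 hν0 hν1 hp hq] at h
  have e1 : 1 - γ * (1 - ν) = 1 := by rw [hz]; ring
  have e2 : 1 - γ * ν + γ * ν = 1 := by ring
  rw [e2, e1] at h
  rw [e1]
  linarith

theorem L0G_of_trace0 (γ ν : ℝ) (h0 : 0 ≤ γ) (h1 : γ ≤ 1) (hν0 : 0 ≤ ν) (hν1 : ν ≤ 1)
    (P B Q : Matrix Y Y ℂ) (hw : (fromBlocks P B Bᴴ Q).PosSemidef)
    (hp0 : P.trace.re = 0) (hq0 : Q.trace.re = 0) :
    St P + St Q + St (omG γ ν P.trace.re Q.trace.re) - Real.negMulLog P.trace.re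
      - Real.negMulLog Q.trace.re ≤ St (OmG γ ν P B Bᴴ Q) := by
  have hw0 : fromBlocks P B Bᴴ Q = 0 := by
    apply eq_zero_of_trace_re_eq_zero hw
    rw [trace_fromBlocks', Complex.add_re, hp0, hq0, add_zero]
  have hP0 : P = 0 := by
    have := congrArg toBlocks₁₁ hw0
    rw [toBlocks_fromBlocks₁₁] at this
    rw [this]; rfl
  have hB0 : B = 0 := by
    have := congrArg toBlocks₁₂ hw0
    rw [toBlocks_fromBlocks₁₂] at this
    rw [this]; rfl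
  have hQ0 : Q = 0 := by
    have := congrArg toBlocks₂₂ hw0
    rw [toBlocks_fromBlocks₂₂] at this
    rw [this]; rfl
  have hOm : OmG γ ν (0 : Matrix Y Y ℂ) 0 0ᴴ 0 = 0 := by
    unfold OmG
    simp
  rw [hp0, hq0, hP0, hB0, hQ0, hOm, St_omG γ ν 0 0 h0 h1 hν0 hν1 le_rfl le_rfl]
  simp [St_zero, DG, rtP, rtM]

end Vale.Agent.P358
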