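import Vale.Agent.P358.GAD.L0Scaled
import Vale.Agent.P358.GAD.StConc
import Vale.Agent.P358.GAD.Chan
import Vale.Agent.P358.GAD.OmScal

/-!
Lemma L0 for all parameters: the generic case (`0 < γ ν`, `0 < γ (1 - ν)`), from the two rescaled
amplitude damping inequalities and concavity of the entropy.
-/

namespace Vale.Agent.P358
open Matrix
open scoped ComplexOrder

variable {Y : Type*} [Fintype Y] [DecidableEq Y]

/-- determinant of the scalar model. -/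
noncomputable def detG (γ ν p q : ℝ) : ℝ :=
  (1 - γ * ν) * (γ * ν) * p ^ 2 + 2 * (γ * ν) * (γ * (1 - ν)) * p * q
    + (γ * (1 - ν)) * (1 - γ * (1 - ν)) * q ^ 2

/-- the two eigenvalues of the scalar model. -/
noncomputable def muP (γ ν p q : ℝ) : ℝ := ((p + q) + Real.sqrt ((p + q) ^ 2 - 4 * detG γ ν p q)) / 2

noncomputable def muM (γ ν p q : ℝ) : ℝ := ((p + q) - Real.sqrt ((p + q) ^ 2 - 4 * detG γ ν p q)) / 2

theorem disc_nonneg (γ ν p q : ℝ) (h1 : γ ≤ 1) (hp : 0 ≤ p) (hq : 0 ≤ q) :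
    0 ≤ (p + q) ^ 2 - 4 * detG γ ν p q := by
  have e : (p + q) ^ 2 - 4 * detG γ ν p q =
      (((1 - γ * ν) * p + γ * (1 - ν) * q) - (γ * ν * p + (1 - γ * (1 - ν)) * q)) ^ 2
        + 4 * ((1 - γ) * (p * q)) := by
    unfold detG; ring
  rw [e]
  have : 0 ≤ (1 - γ) * (p * q) := mul_nonneg (by linarith) (mul_nonneg hp hq)
  positivity

theorem muP_add_muM (γ ν p q : ℝ) : muP γ ν p q + muM γ ν p q = p + q := by
  unfold muP muM; ring

theorem muP_mul_muM (γ ν p q : ℝ) (h1 : γ ≤ 1) (hp : 0 ≤ p) (hq : 0 ≤ q) :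
    muP γ ν p q * muM γ ν p q = detG γ ν p q := by
  unfold muP muM
  have h := Real.sq_sqrt (disc_nonneg γ ν p q h1 hp hq)
  have e : ((p + q) + Real.sqrt ((p + q) ^ 2 - 4 * detG γ ν p q)) / 2 *
      (((p + q) - Real.sqrt ((p + q) ^ 2 - 4 * detG γ ν p q)) / 2) =
      ((p + q) ^ 2 - Real.sqrt ((p + q) ^ 2 - 4 * detG γ ν p q) ^ 2) / 4 := by ring
  rw [e, h]
  ring

/-- entropy of the scalar model in terms of its eigenvalues
(`St_eq_sum_of_det` with the family `![muP, muM]`; `det_fin_two`; positivity of `omG`). -/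
theorem St_omG_eq (γ ν p q : ℝ) (h0 : 0 ≤ γ) (h1 : γ ≤ 1) (hν0 : 0 ≤ ν) (hν1 : ν ≤ 1)
    (hp : 0 ≤ p) (hq : 0 ≤ q) :
    St (omG γ ν p q) = Real.negMulLog (muP γ ν p q) + Real.negMulLog (muM γ ν p q) := by
  rw [St_omG γ ν p q h0 h1 hν0 hν1 hp hq]
  rfl

/-- scalar bookkeeping: splitting the pair `(m₊, m₋)` into the fractions `l` and `1 - l`. -/
theorem split_book (l T mp mm : ℝ) (hT : mp + mm = T) :
    Real.negMulLog (l * mp) + Real.negMulLog (l * mm) + (Real.negMulLog ((1 - l) * mp)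
      + Real.negMulLog ((1 - l) * mm)) + Real.negMulLog (l * T + (1 - l) * T)
      - Real.negMulLog (l * T) - Real.negMulLog ((1 - l) * T) =
      Real.negMulLog mp + Real.negMulLog mm := by
  have e : l * T + (1 - l) * T = T := by ring
  rw [e]
  simp only [Real.negMulLog_mul]
  rw [← hT]
  ring

/-- the population dependent rotation of the Kraus operators (scalar identities). -/
theorem rot_exists (γ ν p q : ℝ) (h1 : γ ≤ 1)
    (ha : 0 < γ * ν) (hb : 0 < γ * (1 - ν)) (hp : 0 ≤ p) (hq : 0 ≤ q) (hT : 0 < p + q) :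
    ∃ k0 k1 l0 l1 lam : ℝ, 0 ≤ k0 ∧ 0 ≤ k1 ∧ 0 ≤ l0 ∧ 0 ≤ l1 ∧
      k0 ^ 2 + l0 ^ 2 = 1 - γ * ν ∧ k1 ^ 2 + l1 ^ 2 = 1 - γ * (1 - ν) ∧
      k0 * k1 + l0 * l1 = Real.sqrt (1 - γ) ∧
      k0 ^ 2 * p + γ * (1 - ν) * q + k1 ^ 2 * q = lam * (p + q) ∧
      l0 ^ 2 * p + (γ * ν * p + l1 ^ 2 * q) = (1 - lam) * (p + q) ∧
      γ * (1 - ν) * q * (k1 ^ 2 * q) = lam ^ 2 * detG γ ν p q ∧
      γ * ν * p * (l0 ^ 2 * p) = (1 - lam) ^ 2 * detG γ ν p q := by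
  have hal : 0 < 1 - γ * ν := by nlinarith
  have hbe' : 0 < 1 - γ * (1 - ν) := by nlinarith
  have hc : 0 ≤ 1 - γ := by linarith
  set D := detG γ ν p q with hD_def
  have hD : 0 < D := by
    rw [hD_def]; unfold detG
    rcases hp.eq_or_lt with hp0 | hp0
    · have hq0 : 0 < q := by linarith
      rw [← hp0]
      have : 0 < γ * (1 - ν) * (1 - γ * (1 - ν)) * q ^ 2 := by positivity
      nlinarith
    · have h1' : 0 < (1 - γ * ν) * (γ * ν) * p ^ 2 := by positivity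
      have h2' : 0 ≤ 2 * (γ * ν) * (γ * (1 - ν)) * p * q := by positivity
      have h3' : 0 ≤ γ * (1 - ν) * (1 - γ * (1 - ν)) * q ^ 2 := by positivity
      linarith
  set t0 := (1 - γ * ν) * p + γ * (1 - ν) * q with ht0
  set t1 := γ * ν * p + (1 - γ * (1 - ν)) * q with ht1
  have ht0n : 0 ≤ t0 := by positivity
  have ht1n : 0 ≤ t1 := by positivity
  set s := Real.sqrt (1 - γ) with hs
  set r := Real.sqrt D with hr
  set sb := Real.sqrt (γ * (1 - ν)) with hsb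
  set sa := Real.sqrt (γ * ν) with hsa
  have hs2 : s ^ 2 = 1 - γ := Real.sq_sqrt hc
  have hr2 : r ^ 2 = D := Real.sq_sqrt hD.le
  have hsb2 : sb ^ 2 = γ * (1 - ν) := Real.sq_sqrt hb.le
  have hsa2 : sa ^ 2 = γ * ν := Real.sq_sqrt ha.le
  have hr0 : 0 < r := Real.sqrt_pos.2 hD
  have hs0 : 0 ≤ s := Real.sqrt_nonneg _
  have hsb0 : 0 ≤ sb := Real.sqrt_nonneg _
  have hsa0 : 0 ≤ sa := Real.sqrt_nonneg _
  have ek0 : (sb * s * q / r) ^ 2 = γ * (1 - ν) * (1 - γ) * q ^ 2 / D := by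
    rw [div_pow, mul_pow, mul_pow, hsb2, hs2, hr2]
  have ek1 : (sb * t1 / r) ^ 2 = γ * (1 - ν) * t1 ^ 2 / D := by
    rw [div_pow, mul_pow, hsb2, hr2]
  have el0 : (sa * t0 / r) ^ 2 = γ * ν * t0 ^ 2 / D := by
    rw [div_pow, mul_pow, hsa2, hr2]
  have el1 : (sa * s * p / r) ^ 2 = γ * ν * (1 - γ) * p ^ 2 / D := by
    rw [div_pow, mul_pow, mul_pow, hsa2, hs2, hr2]
  have ek01 : (sb * s * q / r) * (sb * t1 / r) = s * (γ * (1 - ν) * q * t1 / D) := by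
    rw [← hr2, ← hsb2]; field_simp
  have el01 : (sa * t0 / r) * (sa * s * p / r) = s * (γ * ν * p * t0 / D) := by
    rw [← hr2, ← hsa2]; field_simp
  have hDe : D = (1 - γ * ν) * (γ * ν) * p ^ 2 + 2 * (γ * ν) * (γ * (1 - ν)) * p * q
    + (γ * (1 - ν)) * (1 - γ * (1 - ν)) * q ^ 2 := by rw [hD_def]; rfl
  have h1l : 1 - γ * (1 - ν) * q * t1 / D = γ * ν * p * t0 / D := by
    rw [eq_div_iff hD.ne', sub_mul, div_mul_cancel₀ _ hD.ne', hDe, ht0, ht1]; ring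
  refine ⟨sb * s * q / r, sb * t1 / r, sa * t0 / r, sa * s * p / r, γ * (1 - ν) * q * t1 / D,
    by positivity, by positivity, by positivity, by positivity, ?_, ?_, ?_, ?_, ?_, ?_, ?_⟩
  · rw [ek0, el0, ← add_div, div_eq_iff hD.ne', hDe, ht0]; ring
  · rw [ek1, el1, ← add_div, div_eq_iff hD.ne', hDe, ht1]; ring
  · rw [ek01, el01, ← mul_add, ← add_div]
    have : γ * (1 - ν) * q * t1 + γ * ν * p * t0 = D := by rw [hDe, ht0, ht1]; ring
    rw [this, div_self hD.ne', mul_one]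
  · rw [ek0, ek1]
    field_simp
    rw [hDe, ht1]; ring
  · rw [h1l, el0, el1]
    field_simp
    rw [hDe, ht0]; ring
  · rw [ek1]
    field_simp
  · rw [h1l, el0]
    field_simp

theorem L0G_generic (γ ν : ℝ) (h0 : 0 ≤ γ) (h1 : γ ≤ 1) (hν0 : 0 ≤ ν) (hν1 : ν ≤ 1)
    (ha : 0 < γ * ν) (hb : 0 < γ * (1 - ν)) (P B Q : Matrix Y Y ℂ)
    (hw : (fromBlocks P B Bᴴ Q).PosSemidef) (hT : 0 < P.trace.re + Q.trace.re) :
    St P + St Q + St (omG γ ν P.trace.re Q.trace.re) - Real.negMulLog P.trace.re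
      - Real.negMulLog Q.trace.re ≤ St (OmG γ ν P B Bᴴ Q) := by
  have hP : P.PosSemidef := posSemidef_block₁₁ _ _ _ _ hw
  have hQ : Q.PosSemidef := posSemidef_block₂₂ _ _ _ _ hw
  set p := P.trace.re with hp_def
  set q := Q.trace.re with hq_def
  have hp : 0 ≤ p := (Complex.le_def.1 hP.trace_nonneg).1
  have hq : 0 ≤ q := (Complex.le_def.1 hQ.trace_nonneg).1
  obtain ⟨k0, k1, l0, l1, lam, hk0n, hk1n, hl0n, hl1n, id1, id2, id3, hS1, hS2, hM1, hM2⟩ :=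
    rot_exists γ ν p q h1 ha hb hp hq hT
  obtain ⟨hΩ1, hL1⟩ := L0u_scaled k0 k1 (γ * (1 - ν)) hk0n hk1n hb P B Q hw
  obtain ⟨hΩ2, hL2⟩ := L0u_scaled_flip l0 l1 (γ * ν) hl0n hl1n ha P B Q hw
  have hsum : OmG γ ν P B Bᴴ Q =
      fromBlocks (((k0 ^ 2 : ℝ) : ℂ) • P + ((γ * (1 - ν) : ℝ) : ℂ) • Q) (((k0 * k1 : ℝ) : ℂ) • B)
        (((k0 * k1 : ℝ) : ℂ) • Bᴴ) (((k1 ^ 2 : ℝ) : ℂ) • Q) +
      fromBlocks (((l0 ^ 2 : ℝ) : ℂ) • P) (((l0 * l1 : ℝ) : ℂ) • B)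
        (((l0 * l1 : ℝ) : ℂ) • Bᴴ) (((γ * ν : ℝ) : ℂ) • P + ((l1 ^ 2 : ℝ) : ℂ) • Q) := by
    unfold OmG
    rw [fromBlocks_add]
    congr 1
    · rw [← id1, Complex.ofReal_add, add_smul]; abel
    · rw [← add_smul, ← Complex.ofReal_add, id3]
    · rw [← add_smul, ← Complex.ofReal_add, id3]
    · rw [← id2, Complex.ofReal_add, add_smul]; abel
  have hconc := St_add_ge _ _ hΩ1 hΩ2
  rw [← hsum] at hconc
  have hT1 : (fromBlocks (((k0 ^ 2 : ℝ) : ℂ) • P + ((γ * (1 - ν) : ℝ) : ℂ) • Q)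
      (((k0 * k1 : ℝ) : ℂ) • B) (((k0 * k1 : ℝ) : ℂ) • Bᴴ) (((k1 ^ 2 : ℝ) : ℂ) • Q)).trace.re =
      lam * (p + q) := by
    rw [trace_fromBlocks', trace_add, trace_smul, trace_smul, trace_smul]
    simp only [smul_eq_mul, Complex.add_re, Complex.re_ofReal_mul]
    rw [← hp_def, ← hq_def, hS1]
  have hT2 : (fromBlocks (((l0 ^ 2 : ℝ) : ℂ) • P) (((l0 * l1 : ℝ) : ℂ) • B)
      (((l0 * l1 : ℝ) : ℂ) • Bᴴ) (((γ * ν : ℝ) : ℂ) • P + ((l1 ^ 2 : ℝ) : ℂ) • Q)).trace.re =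
      (1 - lam) * (p + q) := by
    rw [trace_fromBlocks', trace_add, trace_smul, trace_smul, trace_smul]
    simp only [smul_eq_mul, Complex.add_re, Complex.re_ofReal_mul]
    rw [← hp_def, ← hq_def, hS2]
  rw [hT1, hT2] at hconc
  have hmadd := muP_add_muM γ ν p q
  have hmmul := muP_mul_muM γ ν p q h1 hp hq
  have hE1 : Real.negMulLog (lamP (k0 ^ 2 * p) (γ * (1 - ν) * q) (k1 ^ 2 * q))
      + Real.negMulLog (lamM (k0 ^ 2 * p) (γ * (1 - ν) * q) (k1 ^ 2 * q)) =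
      Real.negMulLog (lam * muP γ ν p q) + Real.negMulLog (lam * muM γ ν p q) := by
    apply sg_pair
    · rw [lamP_add_lamM, ← mul_add, hmadd, hS1]
    · rw [lamP_mul_lamM (by positivity) (by positivity) (by positivity), hM1, ← hmmul]; ring
  have hE2 : Real.negMulLog (lamP (l1 ^ 2 * q) (γ * ν * p) (l0 ^ 2 * p))
      + Real.negMulLog (lamM (l1 ^ 2 * q) (γ * ν * p) (l0 ^ 2 * p)) =
      Real.negMulLog ((1 - lam) * muP γ ν p q) + Real.negMulLog ((1 - lam) * muM γ ν p q) := by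
    apply sg_pair
    · rw [lamP_add_lamM, ← mul_add, hmadd, ← hS2]; ring
    · rw [lamP_mul_lamM (by positivity) (by positivity) (by positivity), hM2, ← hmmul]; ring
  rw [hE1] at hL1
  rw [hE2] at hL2
  have hbook := split_book lam (p + q) (muP γ ν p q) (muM γ ν p q) hmadd
  rw [St_omG_eq γ ν p q h0 h1 hν0 hν1 hp hq]
  have hu : k0 ^ 2 * (St P - Real.negMulLog p) + (l0 ^ 2 + γ * ν) * (St P - Real.negMulLog p) =
      St P - Real.negMulLog p := by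
    rw [← add_mul]
    have : k0 ^ 2 + (l0 ^ 2 + γ * ν) = 1 := by linarith
    rw [this, one_mul]
  have hv : (γ * (1 - ν) + k1 ^ 2) * (St Q - Real.negMulLog q) + l1 ^ 2 * (St Q - Real.negMulLog q) =
      St Q - Real.negMulLog q := by
    rw [← add_mul]
    have : γ * (1 - ν) + k1 ^ 2 + l1 ^ 2 = 1 := by linarith
    rw [this, one_mul]
  linarith

end Vale.Agent.P358
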