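import Vale.Agent.P358.GAD.DefsG
import Vale.Agent.P358.AD.CapBook
import Vale.Agent.P358.AD.ScalarG

/-!
The two by two model matrix `omG` and its entropy.
-/

namespace Vale.Agent.P358
open Matrix
open scoped ComplexOrder

theorem gadc_posSemidef (γ ν : ℝ) (hγ0 : 0 ≤ γ) (hγ1 : γ ≤ 1) (hν0 : 0 ≤ ν) (hν1 : ν ≤ 1)
    (ρ : Matrix (Fin 2) (Fin 2) ℂ) (hρ : ρ.PosSemidef) : (gadc γ ν ρ).PosSemidef := by
  have h := tensorPow_posSemidef γ ν hγ0 hγ1 hν0 hν1 1 (ρ.submatrix e1 e1) (hρ.submatrix e1)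
  rw [tensorPow_one] at h
  have h2 := h.submatrix e1.symm
  simpa using h2

theorem omG_eq_gadc (γ ν x t : ℝ) (hx : 0 ≤ x) (ht : 0 ≤ t) :
    omG γ ν x t = gadc γ ν (vecMulVec (![((Real.sqrt x : ℝ) : ℂ), ((Real.sqrt t : ℝ) : ℂ)])
      (star ![((Real.sqrt x : ℝ) : ℂ), ((Real.sqrt t : ℝ) : ℂ)])) := by
  have hs : Real.sqrt (x * t) = Real.sqrt x * Real.sqrt t := Real.sqrt_mul hx _
  have hxx : ((Real.sqrt x : ℝ) : ℂ) * ((Real.sqrt x : ℝ) : ℂ) = (x : ℂ) := by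
    rw [← Complex.ofReal_mul, Real.mul_self_sqrt hx]
  have htt : ((Real.sqrt t : ℝ) : ℂ) * ((Real.sqrt t : ℝ) : ℂ) = (t : ℂ) := by
    rw [← Complex.ofReal_mul, Real.mul_self_sqrt ht]
  ext i j
  fin_cases i <;> fin_cases j <;>
    simp [omG, gadc, vecMulVec_apply, hs, hxx, htt] <;> first | ring1 | (left; ring1)

theorem omG_posSemidef (γ ν x t : ℝ) (hγ0 : 0 ≤ γ) (hγ1 : γ ≤ 1) (hν0 : 0 ≤ ν) (hν1 : ν ≤ 1)
    (hx : 0 ≤ x) (ht : 0 ≤ t) : (omG γ ν x t).PosSemidef := by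
  rw [omG_eq_gadc γ ν x t hx ht]
  exact gadc_posSemidef γ ν hγ0 hγ1 hν0 hν1 _ (Matrix.posSemidef_vecMulVec_self_star _)

/-- determinant of the model matrix. -/
noncomputable def Dg (γ ν x t : ℝ) : ℝ :=
  (1 - γ * ν) * (γ * ν) * x ^ 2 + 2 * (γ * ν) * (γ * (1 - ν)) * (x * t)
    + (γ * (1 - ν)) * (1 - γ * (1 - ν)) * t ^ 2

theorem omG_trace (γ ν x t : ℝ) : (omG γ ν x t).trace.re = x + t := by
  simp [omG, Matrix.trace_fin_two]
  ring

/-- Entropy of a multiple of the model matrix through any description of its two eigenvalues. -/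
theorem St_omG_scaled (γ ν x t : ℝ) (hγ0 : 0 ≤ γ) (hγ1 : γ ≤ 1) (hν0 : 0 ≤ ν) (hν1 : ν ≤ 1)
    (hx : 0 ≤ x) (ht : 0 ≤ t) (lam x' y' z' : ℝ) (hlam : 0 ≤ lam) (hx' : 0 ≤ x') (hy' : 0 ≤ y')
    (hz' : 0 ≤ z') (hsum : x' + y' + z' = lam * (x + t)) (hprod : y' * z' = lam ^ 2 * Dg γ ν x t) :
    Real.negMulLog (lamP x' y' z') + Real.negMulLog (lamM x' y' z') =
      lam * St (omG γ ν x t) + Real.negMulLog lam * (x + t) := by
  have hpsd := omG_posSemidef γ ν x t hγ0 hγ1 hν0 hν1 hx ht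
  have hadd := lamP_add_lamM x' y' z'
  have hmul := lamP_mul_lamM hx' hy' hz'
  have h := St_eq_sum_of_det ((lam : ℂ) • omG γ ν x t) (hpsd.smul (by exact_mod_cast hlam))
    (![lamP x' y' z', lamM x' y' z'] : Fin 2 → ℝ)
    (by
      intro j
      fin_cases j
      · exact lamP_nonneg hx' hy' hz'
      · exact lamM_nonneg hx' hy' hz')
    (by simp)
    (by
      simp only [Fin.sum_univ_two, Matrix.cons_val_zero, Matrix.cons_val_one]
      rw [hadd, hsum, Matrix.trace_smul, smul_eq_mul, Complex.re_ofReal_mul, omG_trace])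
    (by
      intro s hs
      simp only [Fin.prod_univ_two, Matrix.cons_val_zero, Matrix.cons_val_one]
      have e1 : (s + lamP x' y' z') * (s + lamM x' y' z') =
          s ^ 2 + s * (lam * (x + t)) + lam ^ 2 * Dg γ ν x t := by
        calc _ = s ^ 2 + s * (lamP x' y' z' + lamM x' y' z') + lamP x' y' z' * lamM x' y' z' := by
              ring
          _ = _ := by rw [hadd, hmul, hsum, hprod]
      rw [e1, Matrix.det_fin_two]
      have hsq1 : Real.sqrt (1 - γ) * Real.sqrt (1 - γ) = 1 - γ :=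
        Real.mul_self_sqrt (by linarith)
      have hsq2 : Real.sqrt (x * t) * Real.sqrt (x * t) = x * t :=
        Real.mul_self_sqrt (mul_nonneg hx ht)
      simp [omG]
      have e3 : lam * (Real.sqrt (1 - γ) * Real.sqrt (x * t)) *
          (lam * (Real.sqrt (1 - γ) * Real.sqrt (x * t))) = lam ^ 2 * ((1 - γ) * (x * t)) := by
        calc _ = lam ^ 2 * ((Real.sqrt (1 - γ) * Real.sqrt (1 - γ)) *
            (Real.sqrt (x * t) * Real.sqrt (x * t))) := by ring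
          _ = _ := by rw [hsq1, hsq2]
      rw [e3]
      unfold Dg
      ring)
  rw [St_smul _ hpsd lam hlam, omG_trace] at h
  simp only [Fin.sum_univ_two, Matrix.cons_val_zero, Matrix.cons_val_one] at h
  linarith

end Vale.Agent.P358
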