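import Vale.Agent.P358.AD.SuperAdd
import Vale.Agent.P358.GAD.FinalSuccG

/-!
The easy direction, all parameters: the Holevo capacity of the tensor powers of the generalized
amplitude damping channel is superadditive (product ensembles).
-/

namespace Vale.Agent.P358
open Matrix
open scoped ComplexOrder

variable {X Y : Type*} [Fintype X] [DecidableEq X] [Fintype Y] [DecidableEq Y]

/-- The block map `NMG` acts on tensor products factorwise. -/
theorem NMG_kr2 (γ ν : ℝ) {M : Matrix X X ℂ → Matrix Y Y ℂ} (hM : GoodMap M)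
    (s : Matrix (Fin 2) (Fin 2) ℂ) (t : Matrix X X ℂ) :
    NMG γ ν M (kr2 s t) = kr2 (gadc γ ν s) (M t) := by
  unfold NMG kr2 OmG
  rw [toBlocks_fromBlocks₁₁, toBlocks_fromBlocks₁₂, toBlocks_fromBlocks₂₁, toBlocks_fromBlocks₂₂]
  simp only [hM.map_smul, gadc]
  congr 1 <;> simp [smul_smul, add_smul]

/-- Product ensembles: the Holevo quantities of two ensembles add up to a Holevo quantity of the
product channel. -/
theorem holevoQuantity_add_leG (γ ν : ℝ) (h0 : 0 ≤ γ) (h1 : γ ≤ 1) (hν0 : 0 ≤ ν) (hν1 : ν ≤ 1)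
    {M : Matrix X X ℂ → Matrix Y Y ℂ} (hM : GoodMap M) {k l : ℕ}
    (q : Fin k → ℝ) (s : Fin k → Matrix (Fin 2) (Fin 2) ℂ) (p : Fin l → ℝ)
    (t : Fin l → Matrix X X ℂ) (hE1 : IsEnsemble q s) (hE2 : IsEnsemble p t) :
    holevoQuantity (gadc γ ν) q s + holevoQuantity M p t ≤ holevoCapacity (NMG γ ν M) := by
  obtain ⟨hq, hq1, hs⟩ := hE1
  obtain ⟨hp, hp1, ht⟩ := hE2
  have hN : ∀ σ, IsState σ → IsState (gadc γ ν σ) :=
    fun σ hσ => gadc_isState γ ν h0 h1 hν0 hν1 σ hσ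
  have hl := log_two_pos'
  have hsum1 : ∑ ab : Fin k × Fin l, q ab.1 * p ab.2 = 1 := by
    rw [Fintype.sum_prod_type, ← Finset.sum_mul_sum, hq1, hp1, one_mul]
  have h := holevoQ_le_capacity (NMG γ ν M)
    (fun σ hσ => NMG_isState γ ν h0 h1 hν0 hν1 hM hσ)
    (fun ab : Fin k × Fin l => q ab.1 * p ab.2) (fun ab => kr2 (s ab.1) (t ab.2))
    (fun ab => mul_nonneg (hq _) (hp _)) hsum1 (fun ab => kr2_isState _ _ (hs _) (ht _))
  unfold holevoQ at h
  simp only [NMG_kr2 γ ν hM] at h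
  rw [kr2_sum_sum q p (fun a => gadc γ ν (s a)) (fun b => M (t b))] at h
  have hσ : IsState (∑ a, (q a : ℂ) • gadc γ ν (s a)) :=
    mixture_isState q _ hq hq1 fun a => hN _ (hs a)
  have hτ : IsState (∑ b, (p b : ℂ) • M (t b)) :=
    mixture_isState p _ hp hp1 fun b => hM.isState (ht b)
  simp only [vnEntropy_eq_St] at h
  rw [St_kr2 _ _ hσ.1 hτ.1, hσ.2, hτ.2] at h
  have hterm : ∀ ab : Fin k × Fin l,
      q ab.1 * p ab.2 * (St (kr2 (gadc γ ν (s ab.1)) (M (t ab.2))) / Real.log 2) =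
        (q ab.1 * (p ab.2 * St (M (t ab.2))) + (q ab.1 * St (gadc γ ν (s ab.1))) * p ab.2) /
          Real.log 2 := by
    intro ab
    rw [St_kr2 _ _ (hN _ (hs ab.1)).1 (hM.isState (ht ab.2)).1, (hN _ (hs ab.1)).2,
      (hM.isState (ht ab.2)).2]
    simp only [Complex.one_re]
    ring
  simp only [hterm] at h
  have hA : ∑ ab : Fin k × Fin l, q ab.1 * (p ab.2 * St (M (t ab.2))) =
      ∑ b, p b * St (M (t b)) := by
    rw [Fintype.sum_prod_type]
    simp only []
    rw [← Finset.sum_mul_sum, hq1, one_mul]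
  have hB : ∑ ab : Fin k × Fin l, (q ab.1 * St (gadc γ ν (s ab.1))) * p ab.2 =
      ∑ a, q a * St (gadc γ ν (s a)) := by
    rw [Fintype.sum_prod_type]
    simp only []
    rw [← Finset.sum_mul_sum, hp1, mul_one]
  rw [← Finset.sum_div, Finset.sum_add_distrib, hA, hB, ← sub_div, div_le_iff₀ hl] at h
  have e1 := holevoQuantity_mul_log (gadc γ ν) q s
  have e2 := holevoQuantity_mul_log M p t
  simp only [Complex.one_re] at h
  have h3 : (holevoQuantity (gadc γ ν) q s + holevoQuantity M p t) * Real.log 2 ≤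
      holevoCapacity (NMG γ ν M) * Real.log 2 := by
    rw [add_mul, e1, e2]
    linarith
  exact le_of_mul_le_mul_right h3 hl

/-- Superadditivity of the Holevo capacity for `(generalized amplitude damping) ⊗ M`. -/
theorem holevoCapacity_add_le_NMG (γ ν : ℝ) (h0 : 0 ≤ γ) (h1 : γ ≤ 1) (hν0 : 0 ≤ ν) (hν1 : ν ≤ 1)
    [Nonempty X] {M : Matrix X X ℂ → Matrix Y Y ℂ} (hM : GoodMap M) :
    holevoCapacity (gadc γ ν) + holevoCapacity M ≤ holevoCapacity (NMG γ ν M) := by
  obtain ⟨σ2, hσ2⟩ := exists_isState (X := Fin 2)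
  obtain ⟨σX, hσX⟩ := exists_isState (X := X)
  have stepA : ∀ (l : ℕ) (p : Fin l → ℝ) (t : Fin l → Matrix X X ℂ), IsEnsemble p t →
      holevoCapacity (gadc γ ν) ≤ holevoCapacity (NMG γ ν M) - holevoQuantity M p t := by
    intro l p t hE2
    refine holevoCapacity_le_of_forall _ _ ?_ ?_
    · have h := holevoQuantity_add_leG γ ν h0 h1 hν0 hν1 hM _ _ p t
        (isEnsemble_one_point σ2 hσ2) hE2
      rw [holevoQuantity_one_point] at h
      linarith
    · intro k q s hE1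
      have h := holevoQuantity_add_leG γ ν h0 h1 hν0 hν1 hM q s p t hE1 hE2
      linarith
  have stepB : holevoCapacity M ≤ holevoCapacity (NMG γ ν M) - holevoCapacity (gadc γ ν) := by
    refine holevoCapacity_le_of_forall _ _ ?_ ?_
    · have h := stepA 1 _ _ (isEnsemble_one_point σX hσX)
      rw [holevoQuantity_one_point] at h
      linarith
    · intro l p t hE2
      have h := stepA l p t hE2
      linarith
  linarith

/-- The block form of the `(n+1)`-st tensor power has at most its Holevo capacity. -/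
theorem holevoCapacity_NMG_le_succ (γ ν : ℝ) (h0 : 0 ≤ γ) (h1 : γ ≤ 1) (hν0 : 0 ≤ ν) (hν1 : ν ≤ 1)
    (n : ℕ) :
    holevoCapacity (NMG γ ν (tensorPow (gadc γ ν) n)) ≤
      holevoCapacity (tensorPow (gadc γ ν) (n + 1)) := by
  refine holevoCapacity_le_of_forall _ _ (holevoCapacity_nonneg _) ?_
  intro k q ρ hE
  have hE' : IsEnsemble q (fun a => (ρ a).submatrix (consE n).symm (consE n).symm) :=
    ⟨hE.1, hE.2.1, fun a => isState_submatrix _ (hE.2.2 a) _⟩
  obtain ⟨_, heq⟩ := holevoQuantity_succ_eqG γ ν h0 h1 hν0 hν1 n q _ hE'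
  have hcap := holevoQuantity_le_capacity (tensorPow (gadc γ ν) (n + 1))
    (fun σ hσ => tensorPow_isState γ ν h0 h1 hν0 hν1 (n + 1) σ hσ) q _ hE'
  rw [heq] at hcap
  simpa using hcap

/-- **Superadditivity** (the easy direction): `χ(N) + χ(N^{⊗ n}) ≤ χ(N^{⊗ (n+1)})`. -/
theorem holevoCapacity_succ_geG (γ ν : ℝ) (h0 : 0 ≤ γ) (h1 : γ ≤ 1) (hν0 : 0 ≤ ν) (hν1 : ν ≤ 1)
    (n : ℕ) :
    holevoCapacity (gadc γ ν) + holevoCapacity (tensorPow (gadc γ ν) n) ≤
      holevoCapacity (tensorPow (gadc γ ν) (n + 1)) :=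
  (holevoCapacity_add_le_NMG γ ν h0 h1 hν0 hν1 (goodMap_tensorPowG γ ν h0 h1 hν0 hν1 n)).trans
    (holevoCapacity_NMG_le_succ γ ν h0 h1 hν0 hν1 n)

theorem holevoCapacity_tensorPow_geG (γ ν : ℝ) (h0 : 0 ≤ γ) (h1 : γ ≤ 1) (hν0 : 0 ≤ ν) (hν1 : ν ≤ 1)
    (n : ℕ) :
    n * holevoCapacity (gadc γ ν) ≤ holevoCapacity (tensorPow (gadc γ ν) n) := by
  induction n with
  | zero => simpa using holevoCapacity_nonneg (tensorPow (gadc γ ν) 0)
  | succ n ih =>
    have h := holevoCapacity_succ_geG γ ν h0 h1 hν0 hν1 n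
    push_cast
    linarith

end Vale.Agent.P358
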