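import Vale.Agent.P358.GAD.FinalG
import Vale.Agent.P358.GAD.SuperAddG

/-!
The suprema in the definitions of the Holevo capacity and of the classical capacity of the
generalized amplitude damping channel are genuine least upper bounds.
-/

namespace Vale.Agent.P358
open Matrix
open scoped ComplexOrder

theorem exists_isStateL (X : Type*) [Fintype X] [DecidableEq X] [Nonempty X] :
    ∃ ρ : Matrix X X ℂ, IsState ρ := by
  obtain ⟨x⟩ := ‹Nonempty X›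
  refine ⟨Matrix.diagonal (Pi.single x 1), ?_, ?_⟩
  · refine Matrix.PosSemidef.diagonal ?_
    intro i
    by_cases h : i = x
    · subst h; simp
    · simp [Pi.single_apply, h]
  · rw [Matrix.trace_diagonal]
    simp

theorem holevoSet_nonempty {X Y : Type*} [Fintype X] [DecidableEq X] [Nonempty X] [Fintype Y]
    [DecidableEq Y] (Φ : Matrix X X ℂ → Matrix Y Y ℂ) :
    {r : ℝ | ∃ (k : ℕ) (q : Fin k → ℝ) (ρ : Fin k → Matrix X X ℂ),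
      IsEnsemble q ρ ∧ r = holevoQuantity Φ q ρ}.Nonempty := by
  obtain ⟨ρ, hρ⟩ := exists_isStateL X
  exact ⟨_, 1, fun _ => 1, fun _ => ρ, ⟨fun _ => zero_le_one, by simp, fun _ => hρ⟩, rfl⟩

theorem isLUB_holevoCapacity {X Y : Type*} [Fintype X] [DecidableEq X] [Nonempty X] [Fintype Y]
    [DecidableEq Y] (Φ : Matrix X X ℂ → Matrix Y Y ℂ) (hΦ : ∀ ρ, IsState ρ → IsState (Φ ρ)) :
    IsLUB {r : ℝ | ∃ (k : ℕ) (q : Fin k → ℝ) (ρ : Fin k → Matrix X X ℂ),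
      IsEnsemble q ρ ∧ r = holevoQuantity Φ q ρ} (holevoCapacity Φ) :=
  isLUB_csSup (holevoSet_nonempty Φ) (holevoSet_bddAbove Φ hΦ)

theorem holevoCapacity_tensorPow_eqG (γ ν : ℝ) (h0 : 0 ≤ γ) (h1 : γ ≤ 1) (hν0 : 0 ≤ ν) (hν1 : ν ≤ 1)
    (n : ℕ) :
    holevoCapacity (tensorPow (gadc γ ν) n) = n * holevoCapacity (gadc γ ν) :=
  le_antisymm (holevoCapacity_tensorPow_leG γ ν h0 h1 hν0 hν1 n)
    (holevoCapacity_tensorPow_geG γ ν h0 h1 hν0 hν1 n)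

theorem isLUB_one_copyG (γ ν : ℝ) (h0 : 0 ≤ γ) (h1 : γ ≤ 1) (hν0 : 0 ≤ ν) (hν1 : ν ≤ 1) :
    IsLUB {r : ℝ | ∃ (k : ℕ) (q : Fin k → ℝ) (ρ : Fin k → Matrix (Fin 2) (Fin 2) ℂ),
      IsEnsemble q ρ ∧ r = holevoQuantity (gadc γ ν) q ρ} (holevoCapacity (gadc γ ν)) :=
  isLUB_holevoCapacity _ fun ρ hρ => gadc_isState γ ν h0 h1 hν0 hν1 ρ hρ

theorem isLUB_tensorPowG (γ ν : ℝ) (h0 : 0 ≤ γ) (h1 : γ ≤ 1) (hν0 : 0 ≤ ν) (hν1 : ν ≤ 1) (n : ℕ) :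
    IsLUB {r : ℝ | ∃ (k : ℕ) (q : Fin k → ℝ)
        (ρ : Fin k → Matrix (Fin n → Fin 2) (Fin n → Fin 2) ℂ),
      IsEnsemble q ρ ∧ r = holevoQuantity (tensorPow (gadc γ ν) n) q ρ}
      (n * holevoCapacity (gadc γ ν)) := by
  rw [← holevoCapacity_tensorPow_eqG γ ν h0 h1 hν0 hν1 n]
  exact isLUB_holevoCapacity _ fun ρ hρ => (goodMap_tensorPowG γ ν h0 h1 hν0 hν1 n).isState hρ

theorem isLUB_regularizedG (γ ν : ℝ) (h0 : 0 ≤ γ) (h1 : γ ≤ 1) (hν0 : 0 ≤ ν) (hν1 : ν ≤ 1) :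
    IsLUB {r : ℝ | ∃ n : ℕ, 1 ≤ n ∧ r = holevoCapacity (tensorPow (gadc γ ν) n) / n}
      (holevoCapacity (gadc γ ν)) := by
  have hval : ∀ n : ℕ, 1 ≤ n →
      holevoCapacity (tensorPow (gadc γ ν) n) / n = holevoCapacity (gadc γ ν) := by
    intro n hn
    have hn' : (n : ℝ) ≠ 0 := by
      have : (0 : ℝ) < n := by exact_mod_cast hn
      exact this.ne'
    rw [holevoCapacity_tensorPow_eqG γ ν h0 h1 hν0 hν1 n]
    field_simp
  constructor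
  · rintro r ⟨n, hn, rfl⟩
    exact (hval n hn).le
  · intro b hb
    exact hb ⟨1, le_refl 1, (hval 1 (le_refl 1)).symm⟩

end Vale.Agent.P358
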